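import Vale.Agent.P235G.GPerm
import Vale.Agent.P235P.ZMet

/-! P235, bounded genus: the contracted map. -/

open Set SimpleGraph Equiv

noncomputable section

namespace Vale.Agent.P235.Gn

variable {V : Type} {G : SimpleGraph V}

open Classical in
/-- The contraction of `A`. -/
def qA (A : Set V) (v : V) : Option {v // v ∉ A} := if h : v ∈ A then none else some ⟨v, h⟩

/-- Representatives. -/
def pA (A : Set V) (r : V) (x : Option {v // v ∉ A}) : V := x.elim r Subtype.val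

theorem qA_pos {A : Set V} {v : V} (h : v ∈ A) : qA A v = none := dif_pos h

theorem qA_neg {A : Set V} {v : V} (h : v ∉ A) : qA A v = some ⟨v, h⟩ := dif_neg h

theorem qA_pA {A : Set V} {r : V} (h : r ∈ A) (x : Option {v // v ∉ A}) : qA A (pA A r x) = x := by
  cases x with
  | none => exact qA_pos h
  | some v => exact qA_neg v.2

/-- The map in which the darts of `K` are legs and `A` is one vertex. -/
@[reducible] def cmap [Finite V] (G : SimpleGraph V) (A : Set V) (K : Set (Sym2 V)) :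
    Mp (Option {v // v ∉ A}) :=
  ⟨G.Dart, Pl.ztree_fin, rvf G Kᶜ, rvf_rvf _, fun e => qA A e.fst⟩

/-- The contracted edges. -/
def kE (A : Set V) (R : Set (Sym2 V)) : Set (Sym2 V) := {a | a ∉ R ∧ ∀ v ∈ a, v ∈ A}

theorem mem_kE {A : Set V} {R : Set (Sym2 V)} {e : G.Dart} :
    e.edge ∈ kE A R ↔ e.edge ∉ R ∧ e.fst ∈ A ∧ e.snd ∈ A :=
  and_congr_right fun _ => Sym2.ball

/-- The data of a cut graph. -/
structure Cut (T : Pl.Tr G) (A : Set V) (R : Set (Sym2 V)) : Prop where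
  root : T.r ∈ A
  par : ∀ v ∈ A, v ≠ T.r → T.par v ∈ A
  ends : ∀ e : G.Dart, ¬ T.IsT e → e.edge ∉ R → e.fst ∈ A
  tot : ∀ x y, (T.σ * reversal G * rv G R).SameCycle x y
  card : R.ncard + 1 ≤ faceCount G T.σ
  dart : ∀ v, ∃ e : G.Dart, e.fst = v

variable [Finite V] {T : Pl.Tr G} {A : Set V} {R : Set (Sym2 V)}

omit [Finite V] in
theorem Cut.rest (h : Cut T A R) {e : G.Dart} (h1 : e.edge ∉ R) (h2 : e.edge ∉ kE A R) :
    (T.Dn e ∧ e.fst ∉ A) ∨ (T.Dn e.symm ∧ e.snd ∉ A) := by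
  by_cases hT : T.IsT e
  · refine hT.imp (fun k => ⟨k, fun k' => h2 (mem_kE.2 ⟨h1, k', ?_⟩)⟩)
      fun k => ⟨k, fun k' => h2 (mem_kE.2 ⟨h1, ?_, k'⟩)⟩
    · exact k.2 ▸ h.par _ k' k.1
    · exact (show e.fst = T.par e.snd from k.2) ▸ h.par _ k' k.1
  · exact absurd (mem_kE.2 ⟨h1, h.ends e hT h1, h.ends e.symm (by rwa [T.isT_symm])
      (by rwa [Dart.edge_symm])⟩) h2

theorem Cut.surj (h : Cut T A R) (K : Set (Sym2 V)) (x : Option {v // v ∉ A}) :
    ∃ e : (cmap G A K).Dart, e.fst = x := by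
  obtain ⟨e, he⟩ := h.dart (pA A T.r x)
  exact ⟨e, (congrArg (qA A) he).trans (qA_pA h.root x)⟩

theorem Cut.rot (h : Cut T A R) : (cmap G A (kE A R)).Rot (T.σ * rv G (kE A R)) := by
  have := Pl.ztree_fin (G := G)
  have h1 : ∀ e e' : G.Dart, (T.σ * rv G (kE A R)).SameCycle e e' → qA A e.fst = qA A e'.fst :=
    fun e e' => rel_cyc (Z := fun e e' : G.Dart => qA A e.fst = qA A e'.fst)
      ⟨fun _ => rfl, Eq.symm, Eq.trans⟩ fun e => by
        rw [Perm.mul_apply, Pl.Tr.σ_fst, rv_apply]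
        by_cases k : e.edge ∈ kE A R
        · rw [rvf_pos k, qA_pos (mem_kE.1 k).2.1]
          exact (qA_pos (mem_kE.1 k).2.2).symm
        · rw [rvf_neg k]
  have hr : ∀ v : {v // v ∉ A}, v.1 ≠ T.r := fun v k => v.2 (k ▸ h.root)
  have h2 : T.σ * rv G (kE A R) * rv G (R ∪ kE A R)ᶜ = T.σ * reversal G * rv G R := by
    rw [mul_assoc, mul_assoc]
    congr 1
    ext1 e
    change rvf G _ (rvf G _ e) = (rvf G R e).symm
    by_cases k : e.edge ∈ R
    · rw [rvf_pos k, rvf_neg (e := e) (R := (R ∪ kE A R)ᶜ) (fun k' => k' (.inl k)), rvf_neg fun k' => k'.1 k,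
        Dart.symm_symm]
    by_cases k' : e.edge ∈ kE A R
    · rw [rvf_neg k, rvf_neg (e := e) (R := (R ∪ kE A R)ᶜ) (fun k1 => k1 (.inr k')), rvf_pos k']
    · rw [rvf_neg k, rvf_pos (e := e) (R := (R ∪ kE A R)ᶜ) (fun k1 => k1.elim k k'),
        rvf_neg (by rwa [Dart.edge_symm])]
  obtain ⟨e₀, -⟩ := h.dart T.r
  have h3 := cyc_le (T.σ * rv G (kE A R)) (rv G (R ∪ kE A R)ᶜ) (rvf_rvf _)
    (fun v : {v // v ∉ A} => ⟨(v.1, T.par v.1), T.adj _ (hr v)⟩) (fun e he => by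
      have k : e.edge ∈ (R ∪ kE A R)ᶜ := by
        by_contra k
        exact he (rvf_neg k)
      rw [rv_apply, rvf_pos k]
      rcases h.rest (fun k1 => k (.inl k1)) fun k1 => k (.inr k1) with ⟨k1, k2⟩ | ⟨k1, k2⟩
      · exact ⟨⟨_, k2⟩, .inl (Dart.ext _ _ (Prod.ext rfl k1.2))⟩
      · exact ⟨⟨_, k2⟩, .inr (Dart.ext _ _ (Prod.ext rfl k1.2))⟩) e₀ (h2 ▸ h.tot)
  let f : Quotient (Perm.SameCycle.setoid (T.σ * rv G (kE A R))) → Option {v // v ∉ A} :=
    Quotient.lift (fun e : G.Dart => qA A e.fst) h1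
  have h4 : Function.Surjective f := fun x => by
    obtain ⟨e, he⟩ := h.surj (kE A R) x
    exact ⟨⟦e⟧, he⟩
  have h5 := (h4.bijective_of_nat_card_le (by rw [Finite.card_option]; exact h3)).1
  refine ⟨fun e e' => ⟨h1 e e', fun k => Quotient.exact (h5 (a₁ := ⟦e⟧) (a₂ := ⟦e'⟧) k)⟩,
    fun (e : G.Dart) he k => ?_⟩
  have k1 : e.edge ∉ kE A R := fun k1 => he (rvf_neg fun k2 => k2 k1)
  have k2 : T.σ (rvf G (kE A R) e) = rvf G (kE A R)ᶜ e := k
  rw [rvf_neg k1, rvf_pos (R := (kE A R)ᶜ) k1] at k2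
  have k3 := Pl.Tr.σ_fst (T := T) e
  rw [k2] at k3
  exact e.adj.ne' k3

theorem Cut.euler (h : Cut T A R) : Nat.card (cmap G A (kE A R)).Ed + 2 ≤
    Nat.card (Option {v // v ∉ A}) +
      cyc ((T.σ * rv G (kE A R) : Perm G.Dart) * (cmap G A (kE A R)).revP) := by
  have h1 : (T.σ * rv G (kE A R) : Perm G.Dart) * (cmap G A (kE A R)).revP =
      T.σ * reversal G := by
    rw [mul_assoc]
    congr 1
    ext1 e
    change rvf G _ (rvf G _ e) = e.symm
    by_cases k : e.edge ∈ kE A R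
    · rw [rvf_neg (e := e) (R := (kE A R)ᶜ) (fun k' => k' k), rvf_pos k]
    · rw [rvf_pos (e := e) (R := (kE A R)ᶜ) k, rvf_neg (by rwa [Dart.edge_symm])]
  have h2 : ∀ e : (cmap G A (kE A R)).Dart, e.symm ≠ e → Dart.edge (G := G) e ∉ kE A R ∧
      e.symm = Dart.symm (G := G) e := fun e he => by
    have k1 : Dart.edge (G := G) e ∉ kE A R := fun k1 => he (rvf_neg fun k2 => k2 k1)
    exact ⟨k1, rvf_pos k1⟩
  have h3 : ∀ e : (cmap G A (kE A R)).Dart, e.symm ≠ e →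
      Sym2.map (fun e : G.Dart => e.fst) e.edge = Dart.edge (G := G) e := fun e he => by
    rw [Mp.Dart.edge, (h2 e he).2]
    rfl
  have h4 : (cmap G A (kE A R)).Ed.ncard ≤ (R ∪ (fun v => s(v, T.par v)) '' Aᶜ).ncard := by
    refine ncard_le_ncard_of_injOn (Sym2.map fun e : G.Dart => e.fst) ?_ ?_
    · rintro _ ⟨e, he, rfl⟩
      rw [h3 e he]
      by_cases k : Dart.edge (G := G) e ∈ R
      · exact .inl k
      rcases h.rest k (h2 e he).1 with ⟨k1, k2⟩ | ⟨k1, k2⟩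
      · exact .inr ⟨_, k2, congrArg (fun y => s((e : G.Dart).toProd.1, y)) k1.2.symm⟩
      · refine .inr ⟨_, k2, ?_⟩
        have k3 : (e : G.Dart).toProd.1 = T.par (e : G.Dart).toProd.2 := k1.2
        change s(_, _) = s(_, _)
        rw [← k3, Sym2.eq_swap]
    · rintro _ ⟨e, he, rfl⟩ _ ⟨e', he', rfl⟩ k
      rw [h3 e he, h3 e' he'] at k
      rw [Mp.edge_eq_iff, (h2 e' he').2]
      exact (dart_edge_eq_iff _ _).1 k
  have h5 := ncard_union_le R ((fun v => s(v, T.par v)) '' Aᶜ)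
  have h6 := ncard_image_le (f := fun v => s(v, T.par v)) (s := Aᶜ)
  have h7 : Nat.card {v // v ∉ A} = Aᶜ.ncard := Nat.card_coe_set_eq Aᶜ
  have h8 := h.card
  rw [h1, Nat.card_coe_set_eq, Finite.card_option, h7]
  change _ ≤ _ + faceCount G T.σ
  omega

end Vale.Agent.P235.Gn
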