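import Vale.Agent.P235P.PDefs

/-! Genus of a finite connected graph, through rotation systems. -/

namespace Vale.Agent.P235

/-- A finite connected graph has orientable genus at most `g` iff it has no edge (one vertex) or
has a rotation system with `V - E + F ≥ 2 - 2 g`. -/
def GenusLE {V : Type} (G : SimpleGraph V) (g : ℕ) : Prop :=
  G.edgeSet = ∅ ∨ ∃ σ : Equiv.Perm G.Dart, IsRotationSystem G σ ∧
    Nat.card G.edgeSet + 2 ≤ Nat.card V + faceCount G σ + 2 * g

end Vale.Agent.P235
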