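import Vale.Agent.P235P.ZLo

/-! P235, bounded genus: contracting a union of geodesics. -/

open Set MeasureTheory

noncomputable section

namespace Vale.Agent.P235

variable {V : Type}

/-- `ρ` is an `L₁` pseudometric. -/
def L1Rep (ρ : V → V → ℝ) : Prop :=
  ∃ (Ω : Type) (_ : MeasurableSpace Ω) (μ : Measure Ω) (F : V → Ω → ℝ),
    (∀ x, Integrable (F x) μ) ∧ ∀ x y, ρ x y = ∫ ω, |F x ω - F y ω| ∂μ

namespace L1Rep
variable {ρ ρ' : V → V → ℝ}

theorem of_Lp {Ω : Type} [MeasurableSpace Ω] {μ : Measure Ω} (f : V → Lp ℝ 1 μ) :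
    L1Rep fun x y => ‖f x - f y‖ := by
  refine ⟨Ω, _, μ, fun x => f x, fun x => L1.integrable_coeFn _, fun x y => ?_⟩
  beta_reduce
  rw [L1.norm_eq_integral_norm]
  refine integral_congr_ae ?_
  filter_upwards [Lp.coeFn_sub (f x) (f y)] with ω h
  rw [h, Pi.sub_apply, Real.norm_eq_abs]

theorem embeds (h : L1Rep ρ) {d : V → V → ℝ} {C : ℝ} (h1 : ∀ x y, d x y ≤ ρ x y)
    (h2 : ∀ x y, ρ x y ≤ C * d x y) : EmbedsL1 d C := by
  obtain ⟨Ω, _, μ, F, hF, e⟩ := h
  refine ⟨Ω, _, μ, fun x => (hF x).toL1 _, fun x y => ?_⟩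
  have : ‖(hF x).toL1 _ - (hF y).toL1 _‖ = ρ x y := by
    rw [← Integrable.toL1_sub, L1.norm_of_fun_eq_integral_norm, e]
    rfl
  rw [this]
  exact ⟨h1 x y, h2 x y⟩

theorem abs (u : V → ℝ) : L1Rep fun x y => |u x - u y| :=
  ⟨Unit, ⊤, Measure.dirac (), fun x _ => u x, fun _ => integrable_const _, fun _ _ => by simp⟩

theorem smul (h : L1Rep ρ) {c : ℝ} (hc : 0 ≤ c) : L1Rep fun x y => c * ρ x y := by
  obtain ⟨Ω, _, μ, F, hF, e⟩ := h
  refine ⟨Ω, _, μ, fun x ω => c * F x ω, fun x => (hF x).const_mul c, fun x y => ?_⟩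
  beta_reduce
  rw [e, ← integral_const_mul]
  simp only [← mul_sub, abs_mul, abs_of_nonneg hc]

theorem add (h : L1Rep ρ) (h' : L1Rep ρ') : L1Rep fun x y => ρ x y + ρ' x y := by
  obtain ⟨Ω, _, μ, F, hF, e⟩ := h
  obtain ⟨Ω', _, μ', F', hF', e'⟩ := h'
  have ml : MeasurableEmbedding (Sum.inl : Ω → Ω ⊕ Ω') :=
    ⟨Sum.inl_injective, measurable_inl, fun _ h => h.inl_image⟩
  have mr : MeasurableEmbedding (Sum.inr : Ω' → Ω ⊕ Ω') :=
    ⟨Sum.inr_injective, measurable_inr, fun _ h => h.inr_image⟩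
  have key : ∀ (g : Ω → ℝ) (g' : Ω' → ℝ), Integrable g μ → Integrable g' μ' →
      Integrable (Sum.elim g g') (μ.map Sum.inl) ∧ Integrable (Sum.elim g g') (μ'.map Sum.inr) :=
    fun g g' h1 h2 => ⟨ml.integrable_map_iff.2 h1,
      mr.integrable_map_iff.2 h2⟩
  refine ⟨Ω ⊕ Ω', inferInstance, μ.map Sum.inl + μ'.map Sum.inr, fun x => Sum.elim (F x) (F' x),
    fun x => (key _ _ (hF x) (hF' x)).1.add_measure (key _ _ (hF x) (hF' x)).2, fun x y => ?_⟩
  refine Eq.trans ?_ (integral_add_measure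
    ((key _ _ (hF x) (hF' x)).1.sub (key _ _ (hF y) (hF' y)).1).abs
    ((key _ _ (hF x) (hF' x)).2.sub (key _ _ (hF y) (hF' y)).2).abs).symm
  beta_reduce
  rw [ml.integral_map, mr.integral_map, e, e']
  rfl

theorem sum {ι : Type} (s : Finset ι) {ρ : ι → V → V → ℝ} (h : ∀ i ∈ s, L1Rep (ρ i)) :
    L1Rep fun x y => ∑ i ∈ s, ρ i x y := by
  classical
  induction s using Finset.induction_on with
  | empty => simpa using abs fun _ : V => (0 : ℝ)
  | insert a s ha ih =>
    simp only [Finset.sum_insert ha]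
    exact (h a (Finset.mem_insert_self _ _)).add (ih fun i hi => h i (Finset.mem_insert_of_mem hi))

end L1Rep

open Pl

variable {G : SimpleGraph V} {ℓ : Sym2 V → ℝ} {d : V → V → ℝ} {T : Tr G}

theorem gmet_total {a b w : V} (ha : T.Anc a w) (hb : T.Anc b w) : T.Anc a b ∨ T.Anc b a := by
  induction ha with
  | refl => exact Or.inr hb
  | step hv ha ih =>
    cases hb with
    | refl => exact Or.inl (.step hv ha)
    | step _ hb => exact ih hb

theorem gmet_path (M : Met G ℓ d) (g : T.Geo ℓ d) {a b w : V} (ha : T.Anc a w) (hb : T.Anc b w) :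
    d a b ≤ |d a T.r - d b T.r| := by
  rw [← g.h, ← g.h]
  rcases gmet_total ha hb with h | h
  · have := (M.anc g a h).2
    rw [M.self] at this
    linarith [neg_abs_le (T.h a - T.h b)]
  · have := (M.anc g b h).2
    rw [M.self, M.symm] at this
    linarith [le_abs_self (T.h a - T.h b)]

theorem gmet_lip (M : Met G ℓ d) (x y z : V) : |d x z - d y z| ≤ d x y :=
  abs_le.2 ⟨by linarith [M.tri y x z, M.symm x y], by linarith [M.tri x y z]⟩

/-- If the quotient by a union of root paths embeds, then so does the graph. -/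
theorem quot_embed [Fintype V] (M : Met G ℓ d) (T : Tr G) (g : T.Geo ℓ d) (W : Finset V)
    (A : Set V) (hA : ∀ a, a ∈ A ↔ ∃ w ∈ W, T.Anc a w) (h : V → ℝ)
    (hh : ∀ x, IsLeast (d x '' A) (h x)) {Ω : Type} [MeasurableSpace Ω] {μ : Measure Ω}
    (f : V → Lp ℝ 1 μ) {C : ℝ} (hf : ∀ x y, min (d x y) (h x + h y) ≤ ‖f x - f y‖ ∧
      ‖f x - f y‖ ≤ C * min (d x y) (h x + h y)) (hC : 0 ≤ C) :
    EmbedsL1 d (2 * (C + W.card + 1)) := by
  have ex : ∀ w x, ∃ p, T.Anc p w ∧ ∀ q, T.Anc q w → d x p ≤ d x q := fun w x => by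
    obtain ⟨p, h1, h2⟩ := Set.exists_min_image {p | T.Anc p w} (d x) (toFinite _) ⟨w, .refl⟩
    exact ⟨p, h1, h2⟩
  choose p hp hq using ex
  have lip : ∀ w x y, |d x (p w x) - d y (p w y)| ≤ d x y := fun w x y =>
    abs_le.2 ⟨by linarith [hq w y _ (hp w x), M.tri y x (p w x), M.symm x y],
      by linarith [hq w x _ (hp w y), M.tri x y (p w y)]⟩
  have key : ∀ x y, d x y ≤ 4 * h y + 2 * (∑ w ∈ W, |d x (p w x) - d y (p w y)|) +
      |d x T.r - d y T.r| := fun x y => by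
    obtain ⟨a, ha, e⟩ := (hh y).1
    obtain ⟨w, hw, ha⟩ := (hA a).1 ha
    have h1 : |d x (p w x) - d y (p w y)| ≤ ∑ w ∈ W, |d x (p w x) - d y (p w y)| :=
      Finset.single_le_sum (f := fun w => |d x (p w x) - d y (p w y)|) (fun _ _ => abs_nonneg _) hw
    have h2 := hq w y a ha
    have h3 := gmet_path M g (hp w x) ha
    have h4 := abs_le.1 (gmet_lip M x (p w x) T.r)
    have h5 := abs_le.1 (gmet_lip M y a T.r)
    have h6 : |d (p w x) T.r - d a T.r| ≤ |d x T.r - d y T.r| + d x (p w x) + d y a :=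
      abs_le.2 ⟨by linarith [neg_abs_le (d x T.r - d y T.r)],
        by linarith [le_abs_self (d x T.r - d y T.r)]⟩
    linarith [M.tri x (p w x) y, M.tri (p w x) a y, M.symm a y,
      le_abs_self (d x (p w x) - d y (p w y))]
  refine ((((L1Rep.of_Lp f).add (L1Rep.sum W fun w _ => L1Rep.abs fun x => d x (p w x))).add
    (L1Rep.abs fun x => d x T.r)).smul zero_le_two).embeds (fun x y => ?_) fun x y => ?_
  · have h1 := (hf x y).1
    have h2 : 0 ≤ ∑ w ∈ W, |d x (p w x) - d y (p w y)| := Finset.sum_nonneg fun _ _ => abs_nonneg _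
    have h3 := abs_nonneg (d x T.r - d y T.r)
    have h4 := key x y
    have h5 := key y x
    simp only [abs_sub_comm (d y _)] at h5
    rcases min_cases (d x y) (h x + h y) with e | e <;> rw [e.1] at h1 <;>
      linarith [M.nonneg x y, M.symm x y]
  · have h1 := (hf x y).2.trans (mul_le_mul_of_nonneg_left (min_le_left _ _) hC)
    have h2 : ∑ w ∈ W, |d x (p w x) - d y (p w y)| ≤ W.card * d x y := by
      simpa using Finset.sum_le_card_nsmul W _ _ fun w _ => lip w x y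
    linarith [gmet_lip M x y T.r]

end Vale.Agent.P235
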