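import Vale.Agent.P235G.MMet

/-! P235, planar maps: paths in the diagram are long. -/

open Set Vale.Agent.P235.Pl

noncomputable section

namespace Vale.Agent.P235.Gn

variable {V : Type} {G : Mp V} {ℓ : G.Dart → ℝ} {d : V → V → ℝ} {T : Tr G}

/-- Ancestors. -/
inductive Tr.Anc (T : Tr G) (a : V) : V → Prop
  | refl : T.Anc a a
  | step {v : V} : v ≠ T.r → T.Anc a (T.par v) → T.Anc a v

theorem Met.anc (M : Met G ℓ d) (g : T.Geo ℓ d) (s : V) {a v : V} (h : T.Anc a v) :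
    T.h a ≤ T.h v ∧ d s v ≤ d s a + (T.h v - T.h a) := by
  induction h with
  | refl => simp
  | @step v hv _ ih =>
    have h1 := T.lt v hv
    have h2 := g.par v hv
    have h3 : d (T.pd v).fst (T.par v) ≤ _ := M.edge (T.pd v)
    have h4 := M.tri s (T.par v) v
    rw [M.symm, T.pd_fst v hv] at h3
    exact ⟨by linarith [ih.1], by linarith [ih.2]⟩

/-- The point of height `t` on the column of `u` is within `c` of `s`. -/
def Tr.J (T : Tr G) (d : V → V → ℝ) (s u : V) (t c : ℝ) : Prop :=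
  ∃ a, T.Anc a u ∧ d s a + |t - T.h a| ≤ c

/-- The same for the column of a dart. -/
def Tr.I (T : Tr G) (ℓ : G.Dart → ℝ) (d : V → V → ℝ) (s : V) (e : G.Dart) (t c : ℝ) : Prop :=
  T.J d s e.fst t c ∨ ¬ T.IsT e ∧ d s e.snd + |t - (T.h e.fst + ℓ e)| ≤ c

variable {s : V} {e : G.Dart} {t c : ℝ}

theorem Met.i_j (M : Met G ℓ d) (h : T.I ℓ d s e t c) (ht : t ≤ T.h e.fst) : T.J d s e.fst t c := by
  rcases h with h | ⟨-, h⟩
  · exact h
  · have h1 := M.pos e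
    have h2 := M.edge e
    have h3 := M.tri s e.snd e.fst
    rw [M.symm] at h2
    rw [abs_of_nonpos (by linarith)] at h
    exact ⟨_, .refl, by rw [abs_of_nonpos (by linarith)]; linarith⟩

theorem Met.j_dn (M : Met G ℓ d) (g : T.Geo ℓ d) {v : V} (hv : v ≠ T.r) (h : T.J d s v t c)
    (ht : t ≤ T.h (T.par v)) : T.J d s (T.par v) t c := by
  obtain ⟨a, h1, h2⟩ := h
  cases h1 with
  | step _ h1 => exact ⟨a, h1, h2⟩
  | refl =>
    have h3 := T.lt v hv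
    have h4 := g.par v hv
    have h5 : d (T.pd v).fst (T.par v) ≤ _ := M.edge (T.pd v)
    rw [T.pd_fst v hv] at h5
    have h6 := M.tri s v (T.par v)
    rw [abs_of_nonpos (by linarith)] at h2
    exact ⟨_, .refl, by rw [abs_of_nonpos (by linarith)]; linarith⟩

theorem Met.j_τ (M : Met G ℓ d) (g : T.Geo ℓ d) (ht : t ≤ T.m e) :
    T.J d s e.fst t c ↔ T.J d s (T.τ e).fst t c := by
  have h1 : t ≤ T.h e.fst := ht.trans (min_le_left _ _)
  have h2 : t ≤ T.h (T.τ e).fst := ht.trans (min_le_right _ _)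
  by_cases h : T.IsT e
  · rw [Tr.τ_fst_pos h] at h2 ⊢
    rcases h with h | h
    · rw [h.par] at h2 ⊢
      exact ⟨fun k => M.j_dn g h.1 k h2, fun ⟨a, k1, k2⟩ => ⟨a, .step h.1 k1, k2⟩⟩
    · have h3 : e.fst = T.par e.snd := h.par'
      rw [h3] at h1 ⊢
      exact ⟨fun ⟨a, k1, k2⟩ => ⟨a, .step h.1 k1, k2⟩, fun k => M.j_dn g h.1 k h1⟩
  · rw [Tr.τ_fst_neg h]

theorem Met.i_symm (M : Met G ℓ d) (g : T.Geo ℓ d) (he : ¬ T.IsT e)
    (h : T.I ℓ d s e (T.pk ℓ e) c) : T.I ℓ d s e.symm (T.pk ℓ e) c := by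
  obtain ⟨h1, h2⟩ := M.h_le g e
  have e1 : e.symm.fst = e.snd := rfl
  have e2 : e.symm.snd = e.fst := e.symm_snd
  unfold Tr.I Tr.J Tr.pk at *
  rw [e1, e2, M.lsymm]
  rcases h with ⟨a, h3, h4⟩ | ⟨-, h⟩
  · obtain ⟨h5, h6⟩ := M.anc g s h3
    rw [abs_of_nonneg (by linarith)] at h4
    exact Or.inr ⟨by rwa [T.isT_symm], by rw [abs_of_nonpos (by linarith)]; linarith⟩
  · rw [abs_of_nonpos (by linarith)] at h
    exact Or.inl ⟨_, .refl, by rw [abs_of_nonneg (by linarith)]; linarith⟩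

theorem Met.pk_symm (M : Met G ℓ d) (e : G.Dart) : T.pk ℓ e.symm = T.pk ℓ e := by
  have e1 : e.symm.fst = e.snd := rfl
  have e2 : e.symm.snd = e.fst := e.symm_snd
  rw [Tr.pk, Tr.pk, e1, e2, M.lsymm, add_comm (T.h e.snd)]

theorem Ct.lo_inv (C : Ct T) (h : C.NC) (M : Met G ℓ d) (g : T.Geo ℓ d) {q : ℕ × ℝ}
    (hc : Reach (C.sk h) (C.lk ℓ) univ (C.tm e, T.h e.fst) q c) :
    ∃ e', q.1 = C.tm e' ∧ T.I ℓ d e.fst e' q.2 c := by
  induction hc with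
  | refl => exact ⟨e, rfl, Or.inl ⟨_, .refl, by simp [M.self]⟩⟩
  | @vert θ t t' c _ _ ih =>
    obtain ⟨e', h1, h2⟩ := ih
    refine ⟨e', h1, ?_⟩
    have tri : ∀ x : ℝ, |t' - x| ≤ |t - x| + |t - t'| := fun x => by
      have := abs_sub_le t' t x
      rw [abs_sub_comm t' t] at this
      linarith
    rcases h2 with ⟨a, h2, h3⟩ | ⟨h2, h3⟩
    · exact Or.inl ⟨a, h2, by dsimp only at h3 ⊢; linarith [tri (T.h a)]⟩
    · exact Or.inr ⟨h2, by dsimp only at h3 ⊢; linarith [tri (T.h e'.fst + ℓ e')]⟩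
  | @link θ θ' t c _ hl ih =>
    obtain ⟨e', h1, h2⟩ := ih
    obtain rfl : θ = C.tm e' := h1
    dsimp only at h2 ⊢
    rcases hl with ⟨rfl, k1, k2, k3⟩ | ⟨k0, k1, k2, k3⟩ | ⟨k0, rfl, k1⟩ | ⟨k0, k1, k2⟩
    · rw [C.dt_tm] at k3
      refine ⟨T.τ e', ?_, Or.inl ((M.j_τ g k3).1 (M.i_j h2 (k3.trans (min_le_left _ _))))⟩
      rw [← C.tm_dt (C.tm e' + 1) (by omega) k2, C.succ _ k1, C.dt_tm]
    · have k4 : e' = T.τ (C.dt θ') := by rw [← C.succ _ k1, ← k0, C.dt_tm]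
      subst k4
      exact ⟨_, (C.tm_dt θ' k1 k2.le).symm,
        Or.inl ((M.j_τ g k3).2 (M.i_j h2 (k3.trans (min_le_right _ _))))⟩
    · obtain ⟨e₁, k2, k3, k4⟩ := C.arc (ne_of_gt k0)
      obtain rfl : e' = e₁ := by rw [← C.dt_tm e', k3, C.dt_tm]
      obtain rfl : t = T.pk ℓ e' := by rw [← C.dt_tm e']; exact k1
      exact ⟨_, k4, M.i_symm g k2 h2⟩
    · obtain ⟨e₁, k3, rfl, k4⟩ := C.arc (ne_of_gt k0)
      obtain rfl : e' = e₁.symm := by rw [← C.dt_tm e', k1]; exact (congrArg C.dt k4).trans (C.dt_tm _)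
      obtain rfl : t = T.pk ℓ e₁.symm := by rw [M.pk_symm, ← C.dt_tm e₁]; exact k2
      have k5 := M.i_symm (e := e₁.symm) g (by rwa [T.isT_symm]) h2
      rw [e₁.symm_symm] at k5
      exact ⟨e₁, rfl, k5⟩

theorem Ct.lo (C : Ct T) (h : C.NC) (M : Met G ℓ d) (g : T.Geo ℓ d) {e e' : G.Dart} {c : ℝ}
    (hc : Reach (C.sk h) (C.lk ℓ) univ (C.tm e, T.h e.fst) (C.tm e', T.h e'.fst) c) :
    d e.fst e'.fst ≤ c := by
  obtain ⟨e₁, h1, h2⟩ := C.lo_inv h M g hc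
  obtain rfl : e' = e₁ := by rw [← C.dt_tm e', ← C.dt_tm e₁]; exact congrArg _ h1
  obtain ⟨a, h3, h4⟩ := M.i_j h2 le_rfl
  obtain ⟨h5, h6⟩ := M.anc g e.fst h3
  rw [abs_of_nonneg (by linarith)] at h4
  linarith

end Vale.Agent.P235.Gn
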