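import Vale.Agent.P235G.MDefs

/-! P235, planar maps: the shortest path metric. -/

open Set Vale.Agent.P235.Pl

noncomputable section

namespace Vale.Agent.P235.Gn

variable {V : Type} {G : Mp V} {ℓ : G.Dart → ℝ} {d : V → V → ℝ} {T : Tr G}

theorem Met.nonneg (M : Met G ℓ d) (x y : V) : 0 ≤ d x y := by
  have := M.tri x y x
  rw [M.self, M.symm y x] at this
  linarith

theorem Met.dist_pos (M : Met G ℓ d) {x y : V} (h : x ≠ y) : 0 < d x y := by
  obtain ⟨z, hz, e⟩ := M.bell x y h
  linarith [M.pos z, M.nonneg z.snd y]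

/-- `par v` is chosen by `bell v r`, the height is `d v r`. -/
theorem Met.exists_tr (M : Met G ℓ d) {σ : Equiv.Perm G.Dart} (hσ : G.Rot σ) (r : V)
    [Nonempty G.Dart] :
    ∃ T : Tr G, T.σ = σ ∧ T.r = r ∧ T.Geo ℓ d := by
  choose! par h1 h2 using fun v => M.bell v r
  exact ⟨⟨σ, hσ, r, par, fun v => d v r, h1, fun v hv => by linarith [h2 v hv, M.pos (par v)]⟩,
    rfl, rfl, fun _ => rfl, fun v hv => (h2 v hv).trans (add_comm _ _)⟩

/-- Induction on the distance to `y` (finite well-founded order as in `Tr.ind_up`, and `bell`). -/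
theorem Met.ind [Finite V] (M : Met G ℓ d) (y : V) {p : V → Prop} (h0 : p y)
    (h1 : ∀ z : G.Dart, d z.fst y = ℓ z + d z.snd y → p z.snd → p z.fst) (x : V) : p x := by
  have wf : WellFounded fun a b : V => d a y < d b y := Finite.wellFounded_of_trans_of_irrefl _
  induction x using wf.induction with
  | _ x ih =>
    by_cases hx : x = y
    · exact hx ▸ h0
    · obtain ⟨z, rfl, e⟩ := M.bell x y hx
      exact h1 z e (ih z.snd (by linarith [M.pos z]))

/-- Heights differ by at most the length along an edge. -/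
theorem Met.h_le (M : Met G ℓ d) (g : T.Geo ℓ d) (e : G.Dart) :
    T.h e.fst ≤ T.h e.snd + ℓ e ∧ T.h e.snd ≤ T.h e.fst + ℓ e := by
  rw [g.h, g.h]
  have h1 := M.edge e
  have h2 := M.tri e.fst e.snd T.r
  have h3 := M.tri e.snd e.fst T.r
  rw [M.symm e.snd e.fst] at h3
  constructor <;> linarith

end Vale.Agent.P235.Gn
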