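import Vale.Agent.P235G.MTree
import Vale.Agent.P235G.MMet

/-! P235, planar maps: short paths in the diagram. -/

open Set Vale.Agent.P235.Pl

noncomputable section

namespace Vale.Agent.P235.Gn

variable {V : Type} {G : Mp V} {ℓ : G.Dart → ℝ} {d : V → V → ℝ} {T : Tr G}

variable {S : Sk} {D : Lk} {p q r : ℕ × ℝ} {c c' : ℝ}

theorem zup_cast (h : Reach S D univ p q c) (e : c = c') : Reach S D univ p q c' := e ▸ h

theorem rz_trans (h : Reach S D univ p q c) (h' : Reach S D univ q r c') :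
    Reach S D univ p r (c + c') := by
  induction h' with
  | refl => exact zup_cast h (add_zero c).symm
  | vert _ k ih => exact zup_cast (ih.vert k) (add_assoc _ _ _)
  | link _ k ih => exact ih.link k

theorem rz_symm (h : Reach S D univ p q c) : Reach S D univ q p c := by
  induction h with
  | refl k => exact .refl k
  | vert _ _ ih =>
    exact zup_cast (rz_trans (.vert (.refl trivial) trivial) ih) (by rw [abs_sub_comm]; ring)
  | link _ k ih =>
    refine zup_cast (rz_trans (.link (.refl trivial) ?_) ih) (zero_add _)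
    rcases k with k | k | k | k
    exacts [.inr (.inl k), .inl k, .inr (.inr (.inr k)), .inr (.inr (.inl k))]

theorem rz_nonneg (h : Reach S D univ p q c) : 0 ≤ c := by
  induction h with
  | refl => exact le_rfl
  | vert _ _ ih => exact add_nonneg ih (abs_nonneg _)
  | link _ _ ih => exact ih

theorem zup_step (C : Ct T) (h : C.NC) {e : G.Dart} {t : ℝ} (h1 : T.τ e ≠ C.dt 1)
    (h2 : t ≤ T.m e) : Reach (C.sk h) (C.lk ℓ) univ (C.tm e, t) (C.tm (T.τ e), t) 0 :=
  .link (.refl trivial) (.inl ⟨(C.tm_τ h1).2, C.one e, (C.tm_τ h1).1, by rwa [C.dt_tm]⟩)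

/-- `Tr.join` with `e₀ = C.dt 1` and `Z e e' := Reach … (C.tm e, t) (C.tm e', t) 0`; one step is a
link across the gap `C.tm e` (`Ct.tm_τ`). -/
theorem Ct.up0 [Finite V] (C : Ct T) (h : C.NC) {e e' : G.Dart} (he : e.fst = e'.fst) {t : ℝ}
    (ht : t ≤ T.h e.fst) : Reach (C.sk h) (C.lk ℓ) univ (C.tm e, t) (C.tm e', t) 0 := by
  exact T.join (Z := fun e e' => Reach (C.sk h) (C.lk ℓ) univ (C.tm e, t) (C.tm e', t) 0)
    ⟨fun _ => .refl trivial, rz_symm, fun k k' => zup_cast (rz_trans k k') (add_zero 0)⟩ C.root t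
    (fun e => zup_step C h) he ht

theorem zup_dn [Finite V] (C : Ct T) (h : C.NC) (M : Met G ℓ d) (g : T.Geo ℓ d) {e : G.Dart} (hD : T.Dn e.symm) :
    Reach (C.sk h) (C.lk ℓ) univ (C.tm e, T.h e.fst) (C.tm e.symm, T.h e.snd)
      (ℓ e) := by
  have h1 : e.snd ≠ T.r := hD.1
  have h2 : e.fst = T.par e.snd := hD.par'
  have h3 := Tr.τ_fst_pos (.inr hD)
  have h4 := T.lt _ h1
  have h5 := g.par _ h1
  have h6 : e.symm = T.pd e.snd := hD.2
  rw [← h6, M.lsymm] at h5
  rw [← h2] at h4 h5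
  refine zup_cast ((rz_trans (zup_step C h (fun k => h1 (by rw [← h3, k, C.root]))
    (le_min le_rfl (h3 ▸ h4.le))) (C.up0 h (e' := e.symm) h3 (h3 ▸ h4.le))).vert trivial) ?_
  rw [abs_of_neg (sub_neg.2 h4)]
  linarith

/-- An edge costs its length. Not a tree dart: up to `T.pk ℓ e`, the link along the arc
(`mate_tm`, `rn_neg`; `C.tm e ≠ C.tm e.symm`, two cases; `pk` is symmetric), down (`Met.h_le`).
`T.Dn e.symm` (so `e.snd` is a child of `e.fst`): link across the gap `C.tm e` at the height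
`T.h e.fst` (`τ e` starts at `e.snd ≠ r`, so it is not `C.dt 1`), `up0` to `e.symm`, then up by
`g.par`. `T.Dn e`: `rz_symm`. -/
theorem Ct.up1 [Finite V] (C : Ct T) (h : C.NC) (M : Met G ℓ d) (g : T.Geo ℓ d) (e : G.Dart)
    (hne : e.symm ≠ e) : Reach (C.sk h) (C.lk ℓ) univ (C.tm e, T.h e.fst) (C.tm e.symm, T.h e.snd)
      (ℓ e) := by
  by_cases hT : T.IsT e
  · rcases hT with hD | hD
    · have := rz_symm (zup_dn C h M g (e := e.symm) (e.symm_symm.symm ▸ hD))
      rwa [e.symm_symm, e.symm_snd, M.lsymm] at this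
    · exact zup_dn C h M g hD
  have h1 : C.mate (C.tm e) = C.tm e.symm := by rw [C.mate_tm, Tr.rn_neg hT]
  have h2 : C.mate (C.tm e.symm) = C.tm e := by rw [← h1, C.mate_inv]
  have h3 : T.pk ℓ e = T.pk ℓ e.symm := by
    rw [Tr.pk, Tr.pk, M.lsymm, e.symm_snd, add_comm (T.h e.fst)]
    rfl
  have h4 : Link (C.sk h) (C.lk ℓ) (C.tm e) (C.tm e.symm) (T.pk ℓ e) := by
    rcases lt_trichotomy (C.tm e) (C.tm e.symm) with k | k | k
    · exact .inr (.inr (.inl ⟨k.trans_eq h1.symm, h1.symm, congrArg (T.pk ℓ) (C.dt_tm e).symm⟩))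
    · exact absurd ((C.dt_tm _).symm.trans ((congrArg C.dt k.symm).trans (C.dt_tm e))) hne
    · exact .inr (.inr (.inr ⟨k.trans_eq h2.symm, h2.symm,
        h3.trans (congrArg (T.pk ℓ) (C.dt_tm _).symm)⟩))
  refine zup_cast (.vert (.link (.vert (.refl trivial) trivial) h4) trivial) ?_
  obtain ⟨k1, k2⟩ := M.h_le g e
  rw [abs_of_nonpos, abs_of_nonneg] <;> rw [Tr.pk] <;> linarith

/-- `Met.ind` towards `e'.fst`, for all darts `e` out of the current vertex. -/
theorem Ct.up [Finite V] (C : Ct T) (h : C.NC) (M : Met G ℓ d) (g : T.Geo ℓ d) (e e' : G.Dart) :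
    Reach (C.sk h) (C.lk ℓ) univ (C.tm e, T.h e.fst) (C.tm e', T.h e'.fst) (d e.fst e'.fst) := by
  refine M.ind e'.fst (p := fun x => ∀ e : G.Dart, e.fst = x → Reach (C.sk h) (C.lk ℓ) univ
    (C.tm e, T.h x) (C.tm e', T.h e'.fst) (d x e'.fst)) (fun e he => ?_)
    (fun z hd ih e he => ?_) _ e rfl
  · exact zup_cast (C.up0 h he (he ▸ le_rfl)) (M.self _).symm
  · exact zup_cast (rz_trans (C.up0 h (e' := z) he (he ▸ le_rfl))
      (rz_trans (C.up1 h M g z fun k => by
        rw [Mp.Dart.snd, k] at hd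
        linarith [M.pos z]) (ih _ rfl))) ((zero_add _).trans hd.symm)

end Vale.Agent.P235.Gn
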