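import Vale.Agent.P235G.MNc
import Vale.Agent.P235G.MUp
import Vale.Agent.P235G.MLo
import Vale.Agent.P235P.Main

/-! P235, planar maps: planar metrics are realised by link diagrams. -/

open Set Vale.Agent.P235.Pl

noncomputable section

namespace Vale.Agent.P235.Gn

variable {V : Type} {G : Mp V} {ℓ : G.Dart → ℝ} {d : V → V → ℝ} {T : Tr G}

theorem Met.le_pk (M : Met G ℓ d) (g : T.Geo ℓ d) (e : G.Dart) : T.h e.fst ≤ T.pk ℓ e := by
  have := (M.h_le g e).1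
  unfold Tr.pk
  linarith

/-- The height of the vertex of a time that ends an arc is below the peak. -/
theorem Ct.h_le (C : Ct T) (M : Met G ℓ d) (g : T.Geo ℓ d) {a θ : ℕ} (ha : a < C.mate a)
    (hθ : θ = a ∨ θ = C.mate a) : T.h (C.dt θ).fst ≤ T.pk ℓ (C.dt a) := by
  obtain ⟨e, -, h1, h2⟩ := C.arc ha.ne'
  rcases hθ with rfl | rfl
  · exact M.le_pk g _
  · rw [h2, h1, C.dt_tm, C.dt_tm, ← M.pk_symm]
    exact M.le_pk g _

theorem Ct.init (C : Ct T) (h : C.NC) (M : Met G ℓ d) (g : T.Geo ℓ d) :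
    Init (C.sk h) (C.lk ℓ) where
  l0 := eq_empty_of_forall_notMem fun _ ht => absurd ht.1 (by omega)
  lN _ hg := eq_empty_of_forall_notMem fun _ ht => absurd ht.2.1 (not_lt.2 hg)
  down _ _ _ ht h' := ⟨ht.1, ht.2.1, h'.trans ht.2.2⟩
  single _ _ := ⟨_, rfl⟩
  top a p ha hp θ hθ t ht := by
    obtain rfl : p = T.pk ℓ (C.dt a) := hp
    refine le_trans ?_ (C.h_le M g ha hθ)
    rcases ht with ⟨-, -, ht⟩ | ⟨h1, -, ht⟩
    · exact ht.trans (min_le_left _ _)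
    · rw [← Nat.sub_add_cancel (n := θ) (m := 1) (by omega), C.succ _ h1]
      exact ht.trans (min_le_right _ _)

theorem Ct.adj (C : Ct T) (a : ℕ) : C.mate a ≠ a + 1 := fun h => by
  obtain ⟨e, h1, h2, h3⟩ := C.arc (a := a) (by omega)
  have h4 : e.symm = T.τ e := by
    rw [← C.dt_tm e.symm, ← h3, h, C.succ a (h2 ▸ C.one e), h2, C.dt_tm]
  refine T.rot'.mono e (fun k => ?_) ((Tr.τ_neg h1).symm.trans h4.symm)
  rw [k, ← h2] at h3
  omega

theorem map_diagram {V : Type} [Finite V] (G : Mp V) {σ : Equiv.Perm G.Dart} (hσ : G.Rot σ)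
    (hd : ∀ v : V, ∃ e : G.Dart, e.fst = v) (r : V)
    (hE : Nat.card G.Ed + 2 ≤ Nat.card V + cyc (σ * G.revP)) {ℓ : G.Dart → ℝ} {d : V → V → ℝ}
    (M : Met G ℓ d) : ∃ S D pt, (∀ a, S.mate a ≠ a + 1) ∧ Realises S D pt d := by
  choose o ho using hd
  have : Nonempty G.Dart := ⟨o r⟩
  obtain ⟨T, rfl, rfl, g⟩ := M.exists_tr hσ r
  obtain ⟨C⟩ := T.exists_ct (ho _)
  have nc := C.nc hE
  refine ⟨C.sk nc, C.lk ℓ, fun v => (C.tm (o v), T.h v), C.adj, C.init nc M g,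
    fun v => ⟨C.one _, C.le _, fun a p ha hp hθ => ?_⟩, fun x y => ⟨?_, fun c hc => ?_⟩⟩
  · obtain rfl : p = T.pk ℓ (C.dt a) := hp
    have := C.h_le M g ha hθ
    rwa [C.dt_tm, ho] at this
  · have := C.up nc M g (o x) (o y)
    rwa [ho, ho] at this
  · have := C.lo nc M g (e := o x) (e' := o y) (c := c) (by rwa [ho, ho])
    rwa [ho, ho] at this

/-- Metrics of planar maps embed into `L₁`. -/
theorem map_embed : ∃ C : ℝ, ∀ (V : Type) [Fintype V] (G : Mp V) (σ : Equiv.Perm G.Dart),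
    G.Rot σ → (∀ v : V, ∃ e : G.Dart, e.fst = v) → Nonempty V →
    Nat.card G.Ed + 2 ≤ Nat.card V + cyc (σ * G.revP) → ∀ (ℓ : G.Dart → ℝ) (d : V → V → ℝ),
    Met G ℓ d → EmbedsL1 d C := by
  obtain ⟨C, hC⟩ := diag_embed
  refine ⟨C, fun V _ G σ hσ hd ⟨r⟩ hE ℓ d M => ?_⟩
  obtain ⟨S, D, pt, h1, h2⟩ := map_diagram G hσ hd r hE M
  exact hC V S D pt d h1 h2 fun x y h => M.dist_pos h

end Vale.Agent.P235.Gn
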