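import Vale.Agent.P235G.GCut
import Vale.Agent.P235G.GMet
import Vale.Agent.P235G.GDefs
import Vale.Agent.P235G.MMain

/-! P235: graphs of bounded genus. -/

open Set SimpleGraph Equiv

noncomputable section

namespace Vale.Agent.P235.Gn

variable {V : Type} {G : SimpleGraph V} {ℓ : Sym2 V → ℝ} {d : V → V → ℝ} {A : Set V} {h : V → ℝ}

/-- The quotient metric. -/
def dq (d : V → V → ℝ) (h : V → ℝ) (x y : V) : ℝ := min (d x y) (h x + h y)

section
variable (M : Pl.Met G ℓ d) (hh : ∀ x, IsLeast (d x '' A) (h x))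
include M hh

theorem gm_nonneg (x : V) : 0 ≤ h x := by
  obtain ⟨a, -, e⟩ := (hh x).1
  exact e ▸ M.nonneg x a

theorem gm_lip (x y : V) : h x ≤ d x y + h y := by
  obtain ⟨a, ha, e⟩ := (hh y).1
  exact ((hh x).2 ⟨a, ha, rfl⟩).trans (e ▸ M.tri x y a)

theorem gm_zero {x : V} (hx : x ∈ A) : h x = 0 :=
  le_antisymm ((hh x).2 ⟨x, hx, M.self x⟩) (gm_nonneg M hh x)

theorem dq_left {x : V} (hx : x ∈ A) (y : V) : dq d h x y = h y := by
  rw [dq, gm_zero M hh hx, zero_add, M.symm]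
  exact min_eq_right ((hh y).2 ⟨x, hx, rfl⟩)

omit hh in
theorem dq_symm (x y : V) : dq d h x y = dq d h y x := by rw [dq, dq, M.symm, add_comm]

theorem dq_tri (x y z : V) : dq d h x z ≤ dq d h x y + dq d h y z := by
  have h1 := gm_lip M hh x y
  have h2 := gm_lip M hh z y
  have h3 := gm_nonneg M hh y
  have h4 := M.tri x y z
  rw [M.symm z y] at h2
  have h5 := min_le_left (d x z) (h x + h z)
  have h6 := min_le_right (d x z) (h x + h z)
  unfold dq
  rcases min_choice (d x y) (h x + h y) with k | k <;>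
    rcases min_choice (d y z) (h y + h z) with k' | k' <;> rw [k, k'] <;> linarith

theorem dq_q {r : V} (hr : r ∈ A) (x y : V) : dq d h (pA A r (qA A x)) y = dq d h x y := by
  by_cases hx : x ∈ A
  · rw [qA_pos hx, dq_left M hh hx]
    exact dq_left M hh hr y
  · rw [qA_neg hx]
    rfl

theorem dq_qq {r : V} (hr : r ∈ A) (x y : V) :
    dq d h (pA A r (qA A x)) (pA A r (qA A y)) = dq d h x y := by
  rw [dq_q M hh hr, dq_symm M, dq_q M hh hr, dq_symm M]

theorem cmap_met [Finite V] {r : V} (hr : r ∈ A) {K : Set (Sym2 V)}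
    (hK : ∀ e : G.Dart, e.edge ∈ K → e.fst ∈ A ∧ e.snd ∈ A) :
    Met (cmap G A K) (fun e : G.Dart => ℓ e.edge) fun x y => dq d h (pA A r x) (pA A r y) := by
  have pos : ∀ e : G.Dart, 0 < ℓ e.edge := fun e => M.pos _ _ e.adj
  have edge : ∀ e : G.Dart, dq d h e.fst (rvf G Kᶜ e).fst ≤ ℓ e.edge := fun e => by
    refine (min_le_left _ _).trans ?_
    by_cases k : e.edge ∈ Kᶜ
    · rw [rvf_pos k]
      exact M.edge _ _ e.adj
    · rw [rvf_neg k, M.self]
      exact (pos e).le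
  refine ⟨pos, fun e : G.Dart => ?_, fun x => ?_, fun x y => dq_symm M _ _,
    fun x y z => dq_tri M hh _ _ _, fun e : G.Dart => (dq_qq M hh hr _ _).trans_le (edge e),
    fun x y hxy => ?_⟩
  · change ℓ (rvf G Kᶜ e).edge = ℓ e.edge
    by_cases k : e.edge ∈ Kᶜ
    · rw [rvf_pos k, Dart.edge_symm]
    · rw [rvf_neg k]
  · have := gm_nonneg M hh (pA A r x)
    rw [dq, M.self]
    exact min_eq_left (by linarith)
  suffices H : ∃ e : G.Dart, qA A e.fst = x ∧ e.edge ∉ K ∧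
      ℓ e.edge + dq d h e.snd (pA A r y) ≤ dq d h (pA A r x) (pA A r y) by
    obtain ⟨e, rfl, h2, h3⟩ := H
    refine ⟨e, rfl, ?_⟩
    have h4 := edge e
    have h5 : rvf G Kᶜ e = e.symm := rvf_pos h2
    have h6 := dq_tri M hh e.fst e.snd (pA A r y)
    change dq d h (pA A r (qA A e.fst)) _ = ℓ e.edge + dq d h (pA A r (qA A (rvf G Kᶜ e).fst)) _
    rw [h5] at h4 ⊢
    rw [dq_q M hh hr] at h3
    rw [dq_q M hh hr, dq_q M hh hr]
    exact le_antisymm (h6.trans (add_le_add_left h4 _)) h3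
  cases x with
  | none =>
    cases y with
    | none => exact absurd rfl hxy
    | some y =>
      obtain ⟨a, ha, e⟩ := (hh y.1).1
      obtain ⟨z, hz, e'⟩ := M.bell a y.1 fun k => y.2 (k ▸ ha)
      have h1 := M.pos _ _ hz
      rw [M.symm] at e
      refine ⟨⟨(a, z), hz⟩, qA_pos ha, fun k => ?_, ?_⟩
      · have h2 := (hh y.1).2 ⟨z, (hK _ k).2, M.symm _ _⟩
        linarith
      · have h2 := min_le_left (d z y.1) (h z + h y.1)
        change ℓ s(a, z) + dq d h z y.1 ≤ dq d h r y.1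
        rw [dq_left M hh hr, dq]
        linarith
  | some x =>
    have hne : x.1 ≠ pA A r y := fun k => hxy (by rw [← qA_pA hr y, ← k, qA_neg x.2])
    change ∃ e : G.Dart, _ ∧ _ ∧ _ ≤ min (d x.1 _) (h x.1 + _)
    rcases min_choice (d x.1 (pA A r y)) (h x.1 + h (pA A r y)) with k | k <;> rw [k]
    · obtain ⟨z, hz, e⟩ := M.bell _ _ hne
      exact ⟨⟨(x.1, z), hz⟩, qA_neg x.2, fun k => x.2 (hK _ k).1,
        e ▸ add_le_add_right (min_le_left _ _) _⟩
    · obtain ⟨a, ha, e⟩ := (hh x.1).1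
      obtain ⟨z, hz, e'⟩ := M.bell x.1 a fun k => x.2 (k ▸ ha)
      refine ⟨⟨(x.1, z), hz⟩, qA_neg x.2, fun k => x.2 (hK _ k).1, ?_⟩
      have h1 := (hh z).2 ⟨a, ha, rfl⟩
      have h2 := min_le_right (d z (pA A r y)) (h z + h (pA A r y))
      change ℓ s(x.1, z) + min (d z _) (h z + _) ≤ _
      linarith

end

theorem anc_par {T : Pl.Tr G} {a w : V} (h : T.Anc a w) (ha : a ≠ T.r) : T.Anc (T.par a) w := by
  induction h with
  | refl => exact .step ha .refl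
  | step hv _ ih => exact .step hv ih

theorem exists_cut [Finite V] (T : Pl.Tr G) (hd : ∀ v, ∃ e : G.Dart, e.fst = v) {g : ℕ}
    (hE : Nat.card G.edgeSet + 2 ≤ Nat.card V + faceCount G T.σ + 2 * g) :
    ∃ (W : Finset V) (R : Set (Sym2 V)), W.card ≤ 4 * g + 1 ∧
      Cut T {a | ∃ w ∈ W, T.Anc a w} R := by
  classical
  have := Pl.ztree_fin (G := G)
  obtain ⟨e₀, h0⟩ := hd T.r
  obtain ⟨R, r1, r2, r3⟩ := exists_R T h0
  choose c hc using fun a : R => r1 a.2
  have h1 := cyc_le (T.σ * reversal G) (rv G R) (rvf_rvf R) c (fun e he => by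
    have k : e.edge ∈ R := by
      by_contra k
      exact he (rvf_neg k)
    rw [rv_apply, rvf_pos k]
    exact ⟨⟨_, k⟩, ((dart_edge_eq_iff _ _).1 (hc ⟨_, k⟩).2).imp id fun k' =>
      (congrArg Dart.symm k').trans (Dart.symm_symm _)⟩) e₀ r2
  have h2 := T.card_nt
  have h3 := ncard_sdiff_add_ncard_of_subset r1
  rw [Nat.card_coe_set_eq] at h1 h2
  change faceCount G T.σ ≤ _ at h1
  have hL : (T.NT \ R).Finite := toFinite _
  have h4 := Finset.card_biUnion_le_card_mul hL.toFinset Sym2.toFinset 2 fun a _ => by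
    rw [Sym2.card_toFinset]
    split_ifs <;> omega
  rw [← ncard_eq_toFinset_card _ hL] at h4
  refine ⟨insert T.r (hL.toFinset.biUnion Sym2.toFinset), R,
    (Finset.card_insert_le _ _).trans (by omega), ⟨_, Finset.mem_insert_self _ _, .refl⟩,
    fun v ⟨w, hw, k⟩ hv => ⟨w, hw, anc_par k hv⟩, fun e he he' => ⟨e.fst, ?_, .refl⟩, r2, r3, hd⟩
  exact Finset.mem_insert_of_mem (Finset.mem_biUnion.2 ⟨e.edge,
    hL.mem_toFinset.2 ⟨⟨e, he, rfl⟩, he'⟩, Sym2.mem_toFinset.2 (Sym2.mem_mk_left _ _)⟩)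

theorem embeds_mono {C C' : ℝ} (h0 : ∀ x y, 0 ≤ d x y) (hC : C ≤ C') (h : EmbedsL1 d C) :
    EmbedsL1 d C' :=
  let ⟨Ω, m, μ, f, hf⟩ := h
  ⟨Ω, m, μ, f, fun x y => ⟨(hf x y).1,
    (hf x y).2.trans (mul_le_mul_of_nonneg_right hC (h0 x y))⟩⟩

theorem genus_embed (g : ℕ) : ∃ C : ℝ, ∀ (V : Type) [Fintype V] (G : SimpleGraph V),
    G.Connected → GenusLE G g → ∀ ℓ : Sym2 V → ℝ, (∀ e ∈ G.edgeSet, 0 < ℓ e) →
      EmbedsL1 (spDist G ℓ) C := by
  obtain ⟨C₀, h0⟩ := Pl.planar_embed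
  obtain ⟨C, hC⟩ := map_embed
  refine ⟨max C₀ (2 * (max C 0 + (4 * g + 1) + 1)), fun V _ G hG hg ℓ hl => ?_⟩
  have M := Pl.met hG hl
  by_cases h1 : G.edgeSet = ∅
  · exact embeds_mono M.nonneg (le_max_left _ _) (h0 V G hG (.inl h1) ℓ hl)
  obtain ⟨σ, hσ, hE⟩ := hg.resolve_left h1
  have hd : ∀ v : V, ∃ e : G.Dart, e.fst = v := fun v => by
    obtain ⟨a, ha⟩ := nonempty_iff_ne_empty.2 h1
    obtain ⟨w, hw⟩ : ∃ w, v ≠ w := by
      induction a using Sym2.ind with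
      | _ x y =>
        by_cases k : v = x
        · exact ⟨y, k ▸ G.ne_of_adj ha⟩
        · exact ⟨x, k⟩
    obtain ⟨z, hz, -⟩ := M.bell v w hw
    exact ⟨⟨(v, z), hz⟩, rfl⟩
  obtain ⟨r⟩ := hG.nonempty
  obtain ⟨T, rfl, rfl, geo⟩ := M.exists_tr hσ r
  obtain ⟨W, R, hW, cut⟩ := exists_cut T hd hE
  set A : Set V := {a | ∃ w ∈ W, T.Anc a w}
  have hh : ∀ x, ∃ m, IsLeast (spDist G ℓ x '' A) m := fun x => by
    obtain ⟨a, ha, k⟩ := exists_min_image A (spDist G ℓ x) (toFinite _) ⟨_, cut.root⟩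
    exact ⟨_, ⟨a, ha, rfl⟩, by rintro _ ⟨b, hb, rfl⟩; exact k b hb⟩
  choose h hh using hh
  have := Fintype.ofFinite (Option {v // v ∉ A})
  have M' := cmap_met M hh cut.root (K := kE A R) fun e k => (mem_kE.1 k).2
  obtain ⟨Ω, m, μ, f, hf⟩ := embeds_mono M'.nonneg (le_max_left C 0)
    (hC _ _ _ cut.rot (cut.surj _) inferInstance cut.euler _ _ M')
  refine embeds_mono M.nonneg (le_trans ?_ (le_max_right _ _))
    (quot_embed M T geo W A (fun _ => Iff.rfl) h hh (fun v => f (qA A v)) (fun x y => ?_)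
      (le_max_right C 0))
  · have : (W.card : ℝ) ≤ 4 * g + 1 := by exact_mod_cast hW
    linarith
  · have := hf (qA A x) (qA A y)
    beta_reduce at this
    rwa [dq_qq M hh cut.root] at this

end Vale.Agent.P235.Gn
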