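import Vale.Agent.P235G.MDefs
import Vale.Agent.P235P.ZEu

/-! P235, bounded genus: cycles of permutations and a dual spanning tree. -/

open Set SimpleGraph Equiv

noncomputable section

namespace Vale.Agent.P235.Gn

section
variable {D : Type} [Finite D] {ψ ψ' : Perm D} {Z : D → D → Prop}

theorem rel_cyc (hZ : Equivalence Z) (h : ∀ x, Z x (ψ x)) {x y : D} (hxy : ψ.SameCycle x y) :
    Z x y := Pl.cyc_rel ψ hZ x (fun z _ _ => h z) (Perm.SameCycle.refl _ _) hxy

theorem sc_step (ψ : Perm D) (x : D) : ψ.SameCycle x (ψ x) := ⟨1, by rw [zpow_one]⟩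

theorem merge [DecidableEq D] {a b : D} (h : ¬ ψ.SameCycle a b) (hZ : Equivalence Z)
    (hz : ∀ x, Z x ((ψ * swap a b) x)) : (∀ x, Z x (ψ x)) ∧ Z a b := by
  have h1 : ∀ x, x ≠ a → x ≠ b → Z x (ψ x) := fun x ha hb => by
    have := hz x
    rwa [Perm.mul_apply, swap_apply_of_ne_of_ne ha hb] at this
  have ha : Z a (ψ a) := Pl.cyc_rel ψ hZ a (fun x k k' => h1 x k' fun e => h (e ▸ k))
    (Perm.SameCycle.refl _ _) (sc_step ψ a)
  have hb : Z b (ψ b) := Pl.cyc_rel ψ hZ b (fun x k k' => h1 x (fun e => h (e ▸ k).symm) k')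
    (Perm.SameCycle.refl _ _) (sc_step ψ b)
  refine ⟨fun x => ?_, ?_⟩
  · by_cases k : x = a
    · exact k ▸ ha
    by_cases k' : x = b
    · exact k' ▸ hb
    exact h1 x k k'
  · have := hz a
    rw [Perm.mul_apply, swap_apply_left] at this
    exact hZ.trans this (hZ.symm hb)

theorem cyc_lt (h : ∀ x, ψ'.SameCycle x (ψ x)) {a b : D} (h1 : ψ'.SameCycle a b)
    (h2 : ¬ ψ.SameCycle a b) : cyc ψ' < cyc ψ := by
  have := Fintype.ofFinite (Quotient (Perm.SameCycle.setoid ψ))
  have := Fintype.ofFinite (Quotient (Perm.SameCycle.setoid ψ'))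
  rw [cyc, cyc, Nat.card_eq_fintype_card, Nat.card_eq_fintype_card]
  refine Fintype.card_lt_of_surjective_not_injective
    (Quotient.map (sa := Perm.SameCycle.setoid ψ) (sb := Perm.SameCycle.setoid ψ') id
      fun x y k => rel_cyc (Perm.SameCycle.equivalence _) h k) (fun q => ?_) fun k => ?_
  · obtain ⟨x, rfl⟩ := Quotient.exists_rep q
    exact ⟨⟦x⟧, rfl⟩
  · exact h2 (Quotient.exact (k (a₁ := ⟦a⟧) (a₂ := ⟦b⟧) (Quotient.sound h1)))

theorem cyc_pos [Nonempty D] (ψ : Perm D) : 1 ≤ cyc ψ :=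
  have : Nonempty (Quotient (Perm.SameCycle.setoid ψ)) := ⟨⟦Classical.arbitrary D⟧⟩
  Nat.card_pos (α := Quotient (Perm.SameCycle.setoid ψ))

/-- If `ψ * ρ` is one cycle and `ρ` has at most `n` transpositions, `ψ` has at most `n + 1` cycles. -/
theorem cyc_le {ι : Type} [Finite ι] (ψ ρ : Perm D) (hρ : ∀ e, ρ (ρ e) = e) (c : ι → D)
    (hc : ∀ e, ρ e ≠ e → ∃ i, e = c i ∨ ρ e = c i) (e₀ : D)
    (tot : ∀ x y, (ψ * ρ).SameCycle x y) : cyc ψ ≤ Nat.card ι + 1 := by
  classical
  let F := Quotient (Perm.SameCycle.setoid ψ)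
  have := Fintype.ofFinite F
  have := Fintype.ofFinite ι
  let fc : D → F := Quotient.mk _
  let ev : F → (F → ZMod 2) →ₗ[ZMod 2] ZMod 2 := fun x => LinearMap.proj x
  let δ : (F → ZMod 2) →ₗ[ZMod 2] (Option ι → ZMod 2) :=
    LinearMap.pi fun o => o.elim (ev (fc e₀)) fun i => ev (fc (c i)) + ev (fc (ρ (c i)))
  have z0 : ∀ a b : ZMod 2, a + b = 0 → a = b := by decide
  have hi : Function.Injective δ := by
    refine (injective_iff_map_eq_zero _).2 fun k hk => funext fun x => ?_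
    obtain ⟨e, rfl⟩ := Quotient.exists_rep x
    have h0 : k (fc e₀) = 0 := congrFun hk none
    have h1 : ∀ i, k (fc (c i)) = k (fc (ρ (c i))) := fun i => z0 _ _ (congrFun hk (some i))
    refine (rel_cyc (Z := fun e e' => k (fc e) = k (fc e')) ⟨fun _ => rfl, Eq.symm, Eq.trans⟩
      (fun e => ?_) (tot e e₀)).trans h0
    have h2 : fc ((ψ * ρ) e) = fc (ρ e) := (Quotient.sound (sc_step ψ (ρ e))).symm
    rw [h2]
    by_cases h3 : ρ e = e
    · rw [h3]
    obtain ⟨i, h4 | h4⟩ := hc e h3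
    · rw [h4, ← h1]
    · rw [h4, h1, ← h4, hρ]
  have := LinearMap.finrank_le_finrank_of_injective hi
  rw [Module.finrank_fintype_fun_eq_card, Module.finrank_fintype_fun_eq_card,
    Fintype.card_option] at this
  rw [cyc, Nat.card_eq_fintype_card, Nat.card_eq_fintype_card]
  exact this

end

variable {V : Type} {G : SimpleGraph V}

open Classical in
/-- Reversal of the darts of the edges in `R`. -/
def rvf (G : SimpleGraph V) (R : Set (Sym2 V)) (e : G.Dart) : G.Dart :=
  if e.edge ∈ R then e.symm else e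

theorem rvf_pos {R : Set (Sym2 V)} {e : G.Dart} (h : e.edge ∈ R) : rvf G R e = e.symm := if_pos h

theorem rvf_neg {R : Set (Sym2 V)} {e : G.Dart} (h : e.edge ∉ R) : rvf G R e = e := if_neg h

theorem rvf_rvf (R : Set (Sym2 V)) (e : G.Dart) : rvf G R (rvf G R e) = e := by
  by_cases h : e.edge ∈ R
  · rw [rvf_pos h, rvf_pos (by rwa [Dart.edge_symm]), Dart.symm_symm]
  · rw [rvf_neg h, rvf_neg h]

/-- The same as a permutation. -/
def rv (G : SimpleGraph V) (R : Set (Sym2 V)) : Perm G.Dart :=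
  Function.Involutive.toPerm (rvf G R) (rvf_rvf R)

theorem rv_apply (R : Set (Sym2 V)) (e : G.Dart) : rv G R e = rvf G R e := rfl

theorem rv_insert [DecidableEq G.Dart] {R : Set (Sym2 V)} {e : G.Dart} (h : e.edge ∉ R) :
    rv G (insert e.edge R) = rv G R * swap e e.symm := by
  ext1 x
  rw [Perm.mul_apply, rv_apply, rv_apply]
  by_cases k : x = e
  · rw [k, swap_apply_left, rvf_pos (mem_insert _ _), rvf_neg (by rwa [Dart.edge_symm])]
  by_cases k' : x = e.symm
  · rw [k', swap_apply_right, rvf_pos (by rw [Dart.edge_symm]; exact mem_insert _ _), rvf_neg h,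
      Dart.symm_symm]
  rw [swap_apply_of_ne_of_ne k k']
  have h1 : x.edge ≠ e.edge := fun k1 => ((dart_edge_eq_iff x e).1 k1).elim k k'
  by_cases h2 : x.edge ∈ R
  · rw [rvf_pos h2, rvf_pos (mem_insert_of_mem _ h2)]
  · rw [rvf_neg h2, rvf_neg fun k1 => k1.elim h1 h2]

/-- A spanning tree of the dual among the edges outside the tree. -/
theorem exists_R [Finite V] (T : Pl.Tr G) {e₀ : G.Dart} (h0 : e₀.fst = T.r) :
    ∃ R ⊆ T.NT, (∀ x y, (T.σ * reversal G * rv G R).SameCycle x y) ∧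
      R.ncard + 1 ≤ faceCount G T.σ := by
  classical
  have := Pl.ztree_fin (G := G)
  have : Nonempty G.Dart := ⟨e₀⟩
  set φ := T.σ * reversal G with hφ
  let P : Set (Set (Sym2 V)) := {R | R ⊆ T.NT ∧ (∀ x, (φ * rv G R).SameCycle x (φ x)) ∧
    cyc (φ * rv G R) + R.ncard ≤ cyc φ}
  have h1 : rv G ∅ = 1 := Equiv.ext fun x => rvf_neg (notMem_empty _)
  have hP : P.Nonempty := ⟨∅, empty_subset _, fun x => by rw [h1, mul_one]; exact sc_step φ x,
    by rw [h1, mul_one, ncard_empty, add_zero]⟩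
  obtain ⟨R, ⟨r1, r2, r3⟩, hm⟩ :=
    (measure fun R => cyc (φ * rv G R)).wf.has_min P hP
  have eqv := Perm.SameCycle.equivalence (φ * rv G R)
  have key : ∀ e : G.Dart, ¬ T.IsT e → (φ * rv G R).SameCycle e e.symm := fun e he => by
    by_contra hn
    have h2 : e.edge ∉ R := fun k => hn (by
      have := sc_step (φ * rv G R) e
      rw [Perm.mul_apply, rv_apply, rvf_pos k] at this
      exact this.trans (r2 _).symm)
    have h3 : φ * rv G (insert e.edge R) = φ * rv G R * swap e e.symm := by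
      rw [rv_insert h2, ← mul_assoc]
    obtain ⟨m1, m2⟩ := merge hn (Perm.SameCycle.equivalence _) (sc_step _)
    have h4 := cyc_lt m1 m2 hn
    refine hm (insert e.edge R) ⟨insert_subset ⟨e, he, rfl⟩ r1, fun x => ?_, ?_⟩ ?_
    · rw [h3]
      exact rel_cyc (Perm.SameCycle.equivalence _) m1 (r2 x)
    · rw [h3, ncard_insert_of_notMem h2]
      omega
    · change cyc _ < cyc _
      rwa [h3]
  refine ⟨R, r1, T.const eqv h0 fun e => ?_, ?_⟩
  · by_cases he : T.IsT e
    · rw [Pl.Tr.τ_pos he]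
      exact r2 e
    · rw [Pl.Tr.τ_neg he]
      exact (key e he).trans (r2 e.symm)
  · have := cyc_pos (φ * rv G R)
    change _ ≤ cyc φ
    omega

end Vale.Agent.P235.Gn
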