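import Vale.Agent.P235P.Base
import Vale.Agent.P235P.PDefs

/-! P235, planar maps: shortest path trees, contours and their diagrams. -/

open Set Vale.Agent.P235.Pl

noncomputable section

namespace Vale.Agent.P235.Gn

/-- Darts with a reversal (fixed points are legs) and an origin. -/
structure Mp (V : Type) where
  Dart : Type
  fin : Finite Dart
  rev : Dart → Dart
  rev_rev : ∀ e, rev (rev e) = e
  src : Dart → V

instance {V : Type} (G : Mp V) : Finite G.Dart := G.fin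

variable {V : Type} {G : Mp V} {ℓ : G.Dart → ℝ} {d : V → V → ℝ}

namespace Mp

/-- The reversed dart. -/
def Dart.symm (e : G.Dart) : G.Dart := G.rev e

/-- The origin. -/
def Dart.fst (e : G.Dart) : V := G.src e

/-- The end. -/
def Dart.snd (e : G.Dart) : V := e.symm.fst

/-- The edge. -/
def Dart.edge (e : G.Dart) : Sym2 G.Dart := s(e, e.symm)

@[simp] theorem Dart.symm_symm (e : G.Dart) : e.symm.symm = e := G.rev_rev e

theorem Dart.symm_snd (e : G.Dart) : e.symm.snd = e.fst := congrArg Dart.fst e.symm_symm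

theorem edge_eq_iff (e e' : G.Dart) : e.edge = e'.edge ↔ e = e' ∨ e = e'.symm := by
  refine ⟨fun h => (Sym2.eq_iff.1 h).imp And.left And.left, ?_⟩
  rintro (rfl | rfl)
  · rfl
  · rw [Dart.edge, Dart.edge, Dart.symm_symm, Sym2.eq_swap]

/-- The reversal as a permutation. -/
def revP (G : Mp V) : Equiv.Perm G.Dart := Function.Involutive.toPerm G.rev G.rev_rev

/-- The edges. -/
def Ed (G : Mp V) : Set (Sym2 G.Dart) := {a | ∃ e : G.Dart, e.symm ≠ e ∧ a = e.edge}

/-- Rotation systems without faces of length one. -/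
structure Rot (G : Mp V) (σ : Equiv.Perm G.Dart) : Prop where
  rot : ∀ e e' : G.Dart, σ.SameCycle e e' ↔ e.fst = e'.fst
  mono : ∀ e : G.Dart, e.symm ≠ e → σ e ≠ e.symm

end Mp

/-- The number of cycles. -/
def cyc {D : Type} (ψ : Equiv.Perm D) : ℕ :=
  Nat.card (Quotient (Equiv.Perm.SameCycle.setoid ψ))

/-- The properties of the shortest path metric that are used. -/
structure Met (G : Mp V) (ℓ : G.Dart → ℝ) (d : V → V → ℝ) : Prop where
  pos : ∀ e, 0 < ℓ e
  lsymm : ∀ e : G.Dart, ℓ e.symm = ℓ e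
  self : ∀ x, d x x = 0
  symm : ∀ x y, d x y = d y x
  tri : ∀ x y z, d x z ≤ d x y + d y z
  edge : ∀ e : G.Dart, d e.fst e.snd ≤ ℓ e
  bell : ∀ x y, x ≠ y → ∃ e : G.Dart, e.fst = x ∧ d x y = ℓ e + d e.snd y

/-- A rotation system with a rooted spanning tree along which the height `h` increases. -/
structure Tr (G : Mp V) where
  σ : Equiv.Perm G.Dart
  rot' : G.Rot σ
  r : V
  pd : V → G.Dart
  h : V → ℝ
  pd_fst : ∀ v, v ≠ r → (pd v).fst = v
  lt' : ∀ v, v ≠ r → h (pd v).snd < h v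

namespace Tr

variable (T : Tr G)

theorem rot (e e' : G.Dart) : T.σ.SameCycle e e' ↔ e.fst = e'.fst := T.rot'.rot e e'

/-- The parent. -/
def par (v : V) : V := (T.pd v).snd

theorem lt (v : V) (hv : v ≠ T.r) : T.h (T.par v) < T.h v := T.lt' v hv

/-- Darts going down to the parent. -/
def Dn (e : G.Dart) : Prop := e.fst ≠ T.r ∧ e = T.pd e.fst

theorem dn_pd {v : V} (hv : v ≠ T.r) : T.Dn (T.pd v) := by
  rw [Dn, T.pd_fst v hv]
  exact ⟨hv, rfl⟩

/-- Darts of tree edges. -/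
def IsT (e : G.Dart) : Prop := T.Dn e ∨ T.Dn e.symm

open Classical in
/-- Reversal of the tree darts. -/
def rt (e : G.Dart) : G.Dart := if T.IsT e then e.symm else e

open Classical in
/-- Reversal of the other darts. -/
def rn (e : G.Dart) : G.Dart := if T.IsT e then e else e.symm

theorem isT_symm (e : G.Dart) : T.IsT e.symm ↔ T.IsT e := by simp [IsT, or_comm]

theorem rt_rt (e : G.Dart) : T.rt (T.rt e) = e := by
  by_cases h : T.IsT e <;> simp [rt, h, isT_symm]

theorem rn_rn (e : G.Dart) : T.rn (T.rn e) = e := by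
  by_cases h : T.IsT e <;> simp [rn, h, isT_symm]

/-- The contour permutation. -/
def τ : Equiv.Perm G.Dart := T.σ * Function.Involutive.toPerm T.rt T.rt_rt

variable {T}

theorem Dn.par {e : G.Dart} (h : T.Dn e) : e.snd = T.par e.fst := congrArg Mp.Dart.snd h.2

theorem Dn.par' {e : G.Dart} (h : T.Dn e.symm) : e.fst = T.par e.snd := e.symm_snd ▸ h.par

theorem τ_eq (e : G.Dart) : T.τ e = T.σ (T.rt e) := rfl

theorem τ_pos {e : G.Dart} (h : T.IsT e) : T.τ e = T.σ e.symm := by simp [τ_eq, rt, h]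

theorem τ_neg {e : G.Dart} (h : ¬ T.IsT e) : T.τ e = T.σ e := by simp [τ_eq, rt, h]

theorem rn_pos {e : G.Dart} (h : T.IsT e) : T.rn e = e := by simp [rn, h]

theorem rn_neg {e : G.Dart} (h : ¬ T.IsT e) : T.rn e = e.symm := by simp [rn, h]

theorem σ_fst (e : G.Dart) : (T.σ e).fst = e.fst :=
  ((T.rot e (T.σ e)).1 ⟨1, by simp⟩).symm

theorem τ_fst_pos {e : G.Dart} (h : T.IsT e) : (T.τ e).fst = e.snd := by
  rw [τ_pos h, σ_fst]; rfl

theorem τ_fst_neg {e : G.Dart} (h : ¬ T.IsT e) : (T.τ e).fst = e.fst := by rw [τ_neg h, σ_fst]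

theorem Dn.not_symm {e : G.Dart} (h : T.Dn e) : ¬ T.Dn e.symm := fun h' => by
  have h1 := T.lt _ h.1
  have h2 := T.lt _ h'.1
  have h3 : e.fst = T.par e.snd := h'.par'
  have h4 : e.symm.fst = e.snd := rfl
  rw [← h.par] at h1
  rw [h4, ← h3] at h2
  exact lt_asymm h1 h2

variable (T)

/-- Induction from the root. -/
theorem ind_up [Finite V] {p : V → Prop} (h0 : p T.r) (h1 : ∀ v, v ≠ T.r → p (T.par v) → p v)
    (v : V) : p v := by
  have wf : WellFounded fun a b : V => T.h a < T.h b := Finite.wellFounded_of_trans_of_irrefl _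
  induction v using wf.induction with
  | _ v ih =>
    by_cases hv : v = T.r
    · exact hv ▸ h0
    · exact h1 v hv (ih _ (T.lt v hv))

/-- Induction from the leaves. -/
theorem ind_down [Finite V] {p : V → Prop}
    (h1 : ∀ u, (∀ v, v ≠ T.r → T.par v = u → p v) → p u) (u : V) : p u := by
  have wf : WellFounded fun a b : V => T.h b < T.h a := Finite.wellFounded_of_trans_of_irrefl _
  induction u using wf.induction with
  | _ u ih => exact h1 u fun v hv hu => ih v (hu ▸ T.lt v hv)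

/-- The height up to which consecutive columns are glued. -/
def m (e : G.Dart) : ℝ := min (T.h e.fst) (T.h (T.τ e).fst)

/-- The peak of an edge. -/
def pk (ℓ : G.Dart → ℝ) (e : G.Dart) : ℝ := (T.h e.fst + T.h e.snd + ℓ e) / 2

/-- The tree is a shortest path tree. -/
structure Geo (ℓ : G.Dart → ℝ) (d : V → V → ℝ) : Prop where
  h : ∀ v, T.h v = d v T.r
  par : ∀ v, v ≠ T.r → T.h v = T.h (T.par v) + ℓ (T.pd v)

end Tr

/-- The darts enumerated along the contour by the times `1, …, N`. -/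
structure Ct (T : Tr G) where
  N : ℕ
  dt : ℕ → G.Dart
  tm : G.Dart → ℕ
  one : ∀ e, 1 ≤ tm e
  le : ∀ e, tm e ≤ N
  dt_tm : ∀ e, dt (tm e) = e
  tm_dt : ∀ θ, 1 ≤ θ → θ ≤ N → tm (dt θ) = θ
  succ : ∀ θ, 1 ≤ θ → dt (θ + 1) = T.τ (dt θ)
  last : T.τ (dt N) = dt 1
  root : (dt 1).fst = T.r

namespace Ct

variable {T : Tr G} (C : Ct T)

/-- The matching. -/
def mate (θ : ℕ) : ℕ := if 1 ≤ θ ∧ θ ≤ C.N then C.tm (T.rn (C.dt θ)) else θ

theorem mate_tm (e : G.Dart) : C.mate (C.tm e) = C.tm (T.rn e) := by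
  simp [mate, C.one, C.le, C.dt_tm]

theorem mate_inv (a : ℕ) : C.mate (C.mate a) = a := by
  by_cases h : 1 ≤ a ∧ a ≤ C.N
  · have : C.mate a = C.tm (T.rn (C.dt a)) := if_pos h
    rw [this, mate_tm, T.rn_rn, C.tm_dt a h.1 h.2]
  · have : C.mate a = a := if_neg h
    rw [this, this]

/-- The ends of an arc. -/
theorem arc {a : ℕ} (h : C.mate a ≠ a) :
    ∃ e, ¬ T.IsT e ∧ a = C.tm e ∧ C.mate a = C.tm e.symm := by
  by_cases h1 : 1 ≤ a ∧ a ≤ C.N
  · have h2 : C.mate a = C.tm (T.rn (C.dt a)) := if_pos h1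
    have h3 : ¬ T.IsT (C.dt a) := fun h3 => h (by rw [h2, Tr.rn_pos h3, C.tm_dt a h1.1 h1.2])
    exact ⟨_, h3, (C.tm_dt a h1.1 h1.2).symm, by rw [h2, Tr.rn_neg h3]⟩
  · exact absurd (if_neg h1) h

theorem mate_pos (a : ℕ) (h : a < C.mate a) : 1 ≤ a ∧ C.mate a ≤ C.N := by
  obtain ⟨e, -, h1, h2⟩ := C.arc h.ne'
  exact ⟨h1 ▸ C.one e, h2 ▸ C.le _⟩

theorem tm_τ {e : G.Dart} (h : T.τ e ≠ C.dt 1) : C.tm e < C.N ∧ C.tm (T.τ e) = C.tm e + 1 := by
  have h1 : C.tm e < C.N := (C.le e).lt_of_ne fun h1 => h (by rw [← C.last, ← h1, C.dt_tm])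
  refine ⟨h1, ?_⟩
  rw [← C.tm_dt (C.tm e + 1) (by omega) h1, C.succ _ (C.one e), C.dt_tm]

/-- The arcs do not cross. -/
def NC : Prop := ∀ a b, a < b → b < C.mate a → a < C.mate b ∧ C.mate b < C.mate a

/-- The matching as a skeleton. -/
def sk (h : C.NC) : Sk := ⟨C.N, C.mate, C.mate_inv, h, C.mate_pos⟩

/-- The links. -/
def lk (ℓ : G.Dart → ℝ) : Lk :=
  ⟨fun g => {t | 1 ≤ g ∧ g < C.N ∧ t ≤ T.m (C.dt g)}, fun a => {T.pk ℓ (C.dt a)}⟩

end Ct

end Vale.Agent.P235.Gn
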