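import Vale.Agent.P235G.MTree

/-! P235, planar maps: Euler's formula gives face colourings. -/

open Set Vale.Agent.P235.Pl

noncomputable section

namespace Vale.Agent.P235.Gn

variable {V : Type} {G : Mp V} {ℓ : G.Dart → ℝ} {d : V → V → ℝ} {T : Tr G}

/-- The edges outside the tree. -/
def Tr.NT (T : Tr G) : Set (Sym2 G.Dart) :=
  {a | ∃ e : G.Dart, (¬ T.IsT e ∧ e.symm ≠ e) ∧ a = e.edge}

theorem zeu_img (T : Tr G) : G.Ed \ T.NT = (fun v => (T.pd v).edge) '' {T.r}ᶜ := by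
  ext a
  constructor
  · rintro ⟨⟨e, h1, rfl⟩, h2⟩
    have h3 : T.IsT e := by
      by_contra h3
      exact h2 ⟨_, ⟨h3, h1⟩, rfl⟩
    rcases h3 with h3 | h3
    · exact ⟨e.fst, h3.1, congrArg Mp.Dart.edge h3.2.symm⟩
    · exact ⟨e.symm.fst, h3.1, (G.edge_eq_iff _ _).2 (.inr h3.2.symm)⟩
  · rintro ⟨v, hv, rfl⟩
    have h3 := T.dn_pd hv
    refine ⟨⟨_, fun k => h3.not_symm (k.symm ▸ h3), rfl⟩, ?_⟩
    rintro ⟨e, ⟨h1, -⟩, h2⟩
    rcases (G.edge_eq_iff _ e).1 h2 with h | h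
    · exact h1 (.inl (h ▸ h3))
    · exact h1 (.inr (h ▸ h3))

theorem Tr.card_nt [Finite V] (T : Tr G) :
    Nat.card T.NT + Nat.card V = Nat.card G.Ed + 1 := by
  have h1 : T.NT ⊆ G.Ed := by
    rintro _ ⟨e, h, rfl⟩
    exact ⟨e, h.2, rfl⟩
  have h2 : InjOn (fun v => (T.pd v).edge) {T.r}ᶜ := fun v hv w hw e => by
    rcases (G.edge_eq_iff _ _).1 e with h | h
    · rw [← T.pd_fst v hv, h, T.pd_fst w hw]
    · exact absurd (h ▸ T.dn_pd hv) (T.dn_pd hw).not_symm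
  have h3 := ncard_sdiff_add_ncard_of_subset h1
  have h4 := ncard_add_ncard_compl ({T.r} : Set V)
  rw [zeu_img, h2.ncard_image] at h3
  rw [ncard_singleton] at h4
  rw [Nat.card_coe_set_eq, Nat.card_coe_set_eq]
  omega

theorem Tr.exists_g [Finite V] (T : Tr G) {e₀ : G.Dart} (h0 : e₀.fst = T.r)
    (hE : Nat.card G.Ed + 2 ≤ Nat.card V + cyc (T.σ * G.revP)) {e₁ : G.Dart} (h1 : ¬ T.IsT e₁)
    (hne : e₁.symm ≠ e₁) :
    ∃ g : G.Dart → ZMod 2, (∀ e, e ≠ e₁ → e ≠ e₁.symm → g (T.τ e) = g e ∧ g (T.rn e) = g e) ∧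
      g (T.τ e₁) ≠ g e₁ ∧ g (T.τ e₁.symm) ≠ g e₁.symm := by
  classical
  have := Fintype.ofFinite V
  let F := Quotient (Equiv.Perm.SameCycle.setoid (T.σ * G.revP))
  have := Fintype.ofFinite F
  have := Fintype.ofFinite T.NT
  let fc : G.Dart → F := Quotient.mk _
  have hfc : ∀ e : G.Dart, fc (T.σ e.symm) = fc e := fun e =>
    (Quotient.sound (s := Equiv.Perm.SameCycle.setoid (T.σ * G.revP)) ⟨-1, by
      rw [zpow_neg, zpow_one, Equiv.Perm.inv_eq_iff_eq]; rfl⟩)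
  have hp : ∀ e, T.IsT e → fc (T.τ e) = fc e := fun e he => by rw [τ_pos he, hfc]
  have hn : ∀ e, ¬ T.IsT e → fc (T.τ e) = fc e.symm := fun e he => by
    rw [τ_neg he, ← hfc e.symm, Mp.Dart.symm_symm]
  have hc : ∀ a : T.NT, ∃ e : G.Dart, a.1 = e.edge := fun a => a.2.imp fun _ h => h.2
  choose c hc using hc
  let ev : F → (F → ZMod 2) →ₗ[ZMod 2] ZMod 2 := fun x => LinearMap.proj x
  let δ : (F → ZMod 2) →ₗ[ZMod 2] (T.NT → ZMod 2) :=
    LinearMap.pi fun a => ev (fc (c a)) + ev (fc (c a).symm)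
  have hδ : ∀ k e (he : ¬ T.IsT e ∧ e.symm ≠ e), δ k ⟨e.edge, e, he, rfl⟩ = k (fc e) + k (fc e.symm) := by
    intro k e he
    have h2 : δ k ⟨e.edge, e, he, rfl⟩ =
        k (fc (c ⟨e.edge, e, he, rfl⟩)) + k (fc (c ⟨e.edge, e, he, rfl⟩).symm) := rfl
    rcases (G.edge_eq_iff _ _).1 (hc ⟨e.edge, e, he, rfl⟩).symm with h | h
    · rw [h2, h]
    · rw [h2, h, Mp.Dart.symm_symm, add_comm]
  have z0 : ∀ a b : ZMod 2, a + b = 0 → b = a := by decide
  have z1 : ∀ a b : ZMod 2, a + b = 1 → b ≠ a ∧ a ≠ b := by decide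
  have hk : Module.finrank (ZMod 2) (LinearMap.ker δ) ≤ 1 := by
    refine (LinearMap.finrank_le_finrank_of_injective
      (f := (ev (fc e₀)).comp (LinearMap.ker δ).subtype) ?_).trans
      (Module.finrank_self _).le
    refine (injective_iff_map_eq_zero _).2 fun k hk => Subtype.ext (funext fun x => ?_)
    obtain ⟨e, rfl⟩ := Quotient.exists_rep x
    refine (T.const (Z := fun e e' => k.1 (fc e) = k.1 (fc e'))
      ⟨fun _ => rfl, Eq.symm, Eq.trans⟩ h0 (fun e => ?_) e e₀).trans hk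
    by_cases he : T.IsT e
    · rw [hp e he]
    · by_cases hl : e.symm = e
      · rw [hn e he, hl]
      have h2 := hδ k.1 e ⟨he, hl⟩
      rw [LinearMap.mem_ker.1 k.2] at h2
      rw [hn e he, z0 _ _ h2.symm]
  have h2 := δ.finrank_range_add_finrank_ker
  have h3 := T.card_nt
  have h4 : cyc (T.σ * G.revP) = Fintype.card F := Nat.card_eq_fintype_card
  have h5 := (LinearMap.range δ).finrank_le
  have h6 : Module.finrank (ZMod 2) (T.NT → ZMod 2) = Nat.card T.NT := by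
    rw [Module.finrank_fintype_fun_eq_card, Nat.card_eq_fintype_card]
  rw [Module.finrank_fintype_fun_eq_card] at h2
  have h7 : LinearMap.range δ = ⊤ := Submodule.eq_top_of_finrank_eq (by omega)
  obtain ⟨k, hk⟩ := LinearMap.range_eq_top.1 h7 (Pi.single ⟨e₁.edge, e₁, ⟨h1, hne⟩, rfl⟩ 1)
  have h8 := hδ k e₁ ⟨h1, hne⟩
  rw [hk, Pi.single_eq_same] at h8
  have h1' : ¬ T.IsT e₁.symm := fun h => h1 ((T.isT_symm e₁).1 h)
  refine ⟨fun e => k (fc e), fun e he he' => ?_, ?_, ?_⟩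
  · by_cases h : T.IsT e
    · simp only [hp e h, rn_pos h, and_self]
    · by_cases hl : e.symm = e
      · simp only [hn e h, rn_neg h, hl, and_self]
      have h9 := hδ k e ⟨h, hl⟩
      rw [hk, Pi.single_eq_of_ne fun h' =>
        ((G.edge_eq_iff e e₁).1 (congrArg Subtype.val h')).elim he he'] at h9
      simp only [hn e h, rn_neg h, and_self]
      exact z0 _ _ h9.symm
  · simp only [hn e₁ h1]
    exact (z1 _ _ h8.symm).1
  · simp only [hn _ h1', Mp.Dart.symm_symm]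
    exact (z1 _ _ h8.symm).2

end Vale.Agent.P235.Gn
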