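import Vale.Agent.P235G.MEu

/-! P235, planar maps: the arcs do not cross. -/

open Set Vale.Agent.P235.Pl

noncomputable section

namespace Vale.Agent.P235.Gn

variable {V : Type} {G : Mp V} {ℓ : G.Dart → ℝ} {d : V → V → ℝ} {T : Tr G}

/-- A function that does not change along the contour between two times. -/
theorem Ct.run (C : Ct T) {g : G.Dart → ZMod 2} {a b : ℕ} (ha : 1 ≤ a) (hab : a ≤ b)
    (h : ∀ θ, a ≤ θ → θ < b → g (T.τ (C.dt θ)) = g (C.dt θ)) : g (C.dt b) = g (C.dt a) := by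
  induction b, hab using Nat.le_induction with
  | base => rfl
  | succ b hb ih =>
    rw [C.succ b (ha.trans hb), h b hb b.lt_succ_self]
    exact ih fun θ h1 h2 => h θ h1 (h2.trans b.lt_succ_self)

theorem Ct.nc [Finite V] (C : Ct T)
    (hE : Nat.card G.Ed + 2 ≤ Nat.card V + cyc (T.σ * G.revP)) : C.NC := by
  intro a b hab hb
  obtain ⟨e, he, ha, ha'⟩ := C.arc (hab.trans hb).ne'
  obtain ⟨g, hg, g1, g2⟩ := T.exists_g C.root hE he fun k => by
    rw [k, ← ha] at ha'
    omega
  have a1 : 1 ≤ a := ha ▸ C.one e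
  have aN : C.mate a ≤ C.N := ha' ▸ C.le _
  have key : ∀ θ, 1 ≤ θ → θ ≤ C.N → θ ≠ a → θ ≠ C.mate a →
      g (T.τ (C.dt θ)) = g (C.dt θ) ∧ g (T.rn (C.dt θ)) = g (C.dt θ) := fun θ h1 h2 h3 h4 =>
    hg _ (fun h => h3 (by rw [ha, ← h, C.tm_dt θ h1 h2]))
      (fun h => h4 (by rw [ha', ← h, C.tm_dt θ h1 h2]))
  have da : C.dt a = e := by rw [ha, C.dt_tm]
  have da' : C.dt (C.mate a) = e.symm := by rw [ha', C.dt_tm]
  have hb' : C.mate b = C.tm (T.rn (C.dt b)) := if_pos ⟨by omega, by omega⟩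
  have b1 : 1 ≤ C.mate b := hb' ▸ C.one _
  have bN : C.mate b ≤ C.N := hb' ▸ C.le _
  have k0 : g (C.dt (C.mate b)) = g (C.dt b) := by
    rw [hb', C.dt_tm]
    exact (key b (by omega) (by omega) (by omega) (by omega)).2
  have k1 : ∀ c, a < c → c ≤ C.mate a → g (C.dt c) = g (T.τ e) := fun c h1 h2 => by
    rw [← da, ← C.succ a a1]
    exact C.run (by omega) h1 fun θ h3 h4 => (key θ (by omega) (by omega) (by omega) (by omega)).1
  constructor
  · by_contra h
    have := C.run (g := g) b1 (not_lt.1 h) fun θ h3 h4 =>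
      (key θ (by omega) (by omega) (by omega) (by omega)).1
    exact g1 (by rw [← k1 b hab hb.le, ← k0, ← this, da])
  · by_contra h
    have h' : C.mate a ≠ C.mate b := fun h' => by
      have := congrArg C.mate h'
      rw [C.mate_inv, C.mate_inv] at this
      omega
    have := C.run (g := g) (a := C.mate a + 1) (b := C.mate b) (by omega) (by omega)
      fun θ h3 h4 => (key θ (by omega) (by omega) (by omega) (by omega)).1
    rw [C.succ _ (by omega), da', k0, k1 b hab hb.le, ← k1 _ (hab.trans hb) le_rfl, da'] at this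
    exact g2 this.symm

end Vale.Agent.P235.Gn
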