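import Vale.Agent.P235G.NPerm
import Vale.Agent.P235G.GCut

/-! P235, bounded Euler genus: the contracted map. -/

open Set SimpleGraph Equiv

noncomputable section

namespace Vale.Agent.P235.Gn

variable {V : Type} {G : SimpleGraph V} {σ : Perm G.Dart} {tw : Sym2 V → Bool} {T : Pl.Tr G}
  {t : V → Bool} {A : Set V} {R : Set (Sym2 V)}

/-- The flag of a dart with the orientation of its origin. -/
def up (t : V → Bool) (e : G.Dart) : G.Dart × Bool := (e, t e.fst)

theorem up_cases (t : V → Bool) (x : G.Dart × Bool) : x = up t x.1 ∨ x = nu (up t x.1) := by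
  obtain ⟨e, s⟩ := x
  cases s <;> cases k : t e.fst <;> simp [up, nu, k]

/-- Local orientations that agree along the tree. -/
structure Sch (T : Pl.Tr G) (σ : Perm G.Dart) (tw : Sym2 V → Bool) (t : V → Bool) : Prop where
  rot : ∀ e, flagRot G σ (up t e) = up t (T.σ e)
  tree : ∀ e, T.IsT e → flagRev G tw (up t e) = up t e.symm
  fst : ∀ x, (flagRot G σ x).1.fst = x.1.fst

theorem nt_iff {e : G.Dart} : e.edge ∈ T.NT ↔ ¬ T.IsT e := by
  refine ⟨?_, fun h => ⟨e, h, rfl⟩⟩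
  rintro ⟨e', h, k⟩
  rcases (dart_edge_eq_iff _ _).1 k with rfl | rfl
  · exact h
  · rwa [T.isT_symm]

variable [Finite V]

theorem Sch.tot (h : Sch T σ tw t) {e₀ : G.Dart} (h0 : e₀.fst = T.r)
    (r2 : ∀ x, (ps σ tw R).SameCycle x (ps σ tw ∅ x))
    (key : ∀ x : G.Dart × Bool, x.1.edge ∈ T.NT → (ps σ tw R).SameCycle x (flagRev G tw x) ∨
      (ps σ tw R).SameCycle x (mi tw R (flagRev G tw x))) (x y : G.Dart × Bool) :
    (ps σ tw R).SameCycle x y ∨ (ps σ tw R).SameCycle x (mi tw R y) := by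
  have := Pl.ztree_fin (G := G)
  let Y : G.Dart × Bool → G.Dart × Bool → Prop := fun x y =>
    (ps σ tw R).SameCycle x y ∨ (ps σ tw R).SameCycle x (mi tw R y)
  have m : ∀ {x y}, (ps σ tw R).SameCycle x y → (ps σ tw R).SameCycle (mi tw R x) (mi tw R y) :=
    mir_same ps_mir
  have m' : ∀ {x y}, (ps σ tw R).SameCycle x (mi tw R y) →
      (ps σ tw R).SameCycle (mi tw R x) y := fun k => by
    have := m k
    rwa [mi_mi] at this
  have eqv : Equivalence Y := by
    refine ⟨fun _ => .inl (.refl _ _), fun k => k.imp .symm fun k => (m' k).symm, ?_⟩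
    rintro x y z (k | k) (k' | k')
    exacts [.inl (k.trans k'), .inr (k.trans k'), .inr (k.trans (m k')), .inl (k.trans (m' k'))]
  have h1 : ∀ e e', Y (up t e) (up t e') := T.const (Z := fun e e' => Y (up t e) (up t e'))
    ⟨fun _ => eqv.refl _, eqv.symm, eqv.trans⟩ h0 fun e => by
      by_cases he : T.IsT e
      · rw [Pl.Tr.τ_pos he, ← h.rot, ← h.tree e he, ← ps_neg (notMem_empty _)]
        exact .inl (r2 _)
      · have := r2 (flagRev G tw (up t e))
        rw [ps_neg (notMem_empty _), al_al, h.rot, ← Pl.Tr.τ_neg he] at this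
        exact eqv.trans (key _ (nt_iff.2 he)) (.inl this)
  have h2 : ∀ x, Y x (up t x.1) := fun x => by
    rcases up_cases t x with k | k
    · exact .inl (k ▸ .refl _ _)
    · by_cases k' : x.1.edge ∈ R
      · rw [← mi_pos (tw := tw) (x := up t x.1) k'] at k
        exact .inr (k ▸ .refl _ _)
      · have k1 : Y (up t x.1) (flagRev G tw (up t x.1)) := by
          by_cases he : T.IsT x.1
          · rw [h.tree _ he]
            exact h1 _ _
          · exact key _ (nt_iff.2 he)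
        refine eqv.trans (.inr ?_) (eqv.symm k1)
        rw [mi_neg (by rwa [al_edge]), ← al_nu, al_al, ← k]
  exact eqv.trans (h2 x) (eqv.trans (h1 _ _) (eqv.symm (h2 y)))

/-- The data of a cut graph. -/
structure NCt (T : Pl.Tr G) (σ : Perm G.Dart) (tw : Sym2 V → Bool) (t : V → Bool) (A : Set V)
    (R : Set (Sym2 V)) : Prop extends Sch T σ tw t where
  root : T.r ∈ A
  par : ∀ v ∈ A, v ≠ T.r → T.par v ∈ A
  ends : ∀ e : G.Dart, ¬ T.IsT e → e.edge ∉ R → e.fst ∈ A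
  sub : R ⊆ T.NT
  r2 : ∀ x, (ps σ tw R).SameCycle x (ps σ tw ∅ x)
  tot : ∀ x y, (ps σ tw R).SameCycle x y ∨ (ps σ tw R).SameCycle x (mi tw R y)

omit [Finite V] in
theorem NCt.rest (h : NCt T σ tw t A R) {e : G.Dart} (h1 : e.edge ∉ R) (h2 : e.edge ∉ kE A R) :
    (T.Dn e ∧ e.fst ∉ A) ∨ (T.Dn e.symm ∧ e.snd ∉ A) := by
  by_cases hT : T.IsT e
  · refine hT.imp (fun k => ⟨k, fun k' => h2 (mem_kE.2 ⟨h1, k', ?_⟩)⟩)
      fun k => ⟨k, fun k' => h2 (mem_kE.2 ⟨h1, ?_, k'⟩)⟩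
    · exact k.2 ▸ h.par _ k' k.1
    · exact (show e.fst = T.par e.snd from k.2) ▸ h.par _ k' k.1
  · exact absurd (mem_kE.2 ⟨h1, h.ends e hT h1, h.ends e.symm (by rwa [T.isT_symm])
      (by rwa [Dart.edge_symm])⟩) h2

omit [Finite V] in
theorem NCt.step (h : NCt T σ tw t A R) {e : G.Dart} (he : T.IsT e) :
    ps σ tw R (up t e) = up t (T.σ e.symm) := by
  rw [ps_neg (x := up t e) fun k => nt_iff.1 (h.sub k) he, h.tree e he, h.rot]

theorem NCt.below (h : NCt T σ tw t A R) (v : V) : v ∉ A → ∀ e e' : G.Dart, e.fst = v →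
    e'.fst = v → (ps σ tw R).SameCycle (up t e) (up t e') := by
  have := Pl.ztree_fin (G := G)
  refine T.ind_down (p := fun v => v ∉ A → ∀ e e' : G.Dart, e.fst = v →
    e'.fst = v → (ps σ tw R).SameCycle (up t e) (up t e')) (fun u ih hu e e' he he' => ?_) v
  have hr : u ≠ T.r := fun k => hu (k ▸ h.root)
  refine Pl.cyc_rel T.σ (Z := fun e e' => (ps σ tw R).SameCycle (up t e) (up t e'))
    ⟨fun _ => .refl _ _, .symm, .trans⟩ ⟨(u, T.par u), T.adj u hr⟩ (fun x hx hne => ?_)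
    ((T.rot _ _).2 he.symm) ((T.rot _ _).2 he'.symm)
  have k : u = x.fst := (T.rot _ _).1 hx
  by_cases hT : T.IsT x
  · have k1 : T.Dn x.symm := hT.resolve_left fun k1 =>
      hne (Dart.ext _ _ (Prod.ext k.symm (k ▸ k1.2)))
    have k2 : T.par x.snd = u := k.symm ▸ k1.2.symm
    have k3 := ih x.snd k1.1 k2 (fun k3 => hu (k2 ▸ h.par _ k3 k1.1)) (T.σ x.symm) x.symm
      (Pl.Tr.σ_fst _) rfl
    have k4 := sc_step (ps σ tw R) (up t x)
    have k5 := sc_step (ps σ tw R) (up t x.symm)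
    rw [h.step hT] at k4
    rw [h.step ((T.isT_symm x).2 hT), Dart.symm_symm] at k5
    exact k4.trans (k3.trans k5)
  · have k1 : x.edge ∈ R := by
      by_contra k1
      exact hu (k ▸ h.ends x hT k1)
    rw [← h.rot, ← ps_pos (tw := tw) (x := up t x) k1]
    exact sc_step _ _

theorem NCt.inv (h : NCt T σ tw t A R) {x : G.Dart × Bool} (hx : x.1.edge ∉ kE A R) :
    (ps σ tw R).SameCycle x (flagRev G tw x) := by
  have := Pl.ztree_fin (G := G)
  by_cases k : x.1.edge ∈ R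
  · have := h.r2 (flagRev G tw x)
    rw [ps_neg (notMem_empty _), al_al, ← ps_pos k] at this
    exact (sc_step _ x).trans this.symm
  have h1 : ∀ e : G.Dart, T.Dn e.symm → e.snd ∉ A →
      (ps σ tw R).SameCycle (up t e) (up t e.symm) := fun e k1 k2 => by
    have k4 := sc_step (ps σ tw R) (up t e)
    rw [h.step (.inr k1)] at k4
    exact k4.trans (h.below _ k2 _ _ (Pl.Tr.σ_fst _) rfl)
  have h2 : (ps σ tw R).SameCycle (up t x.1) (flagRev G tw (up t x.1)) := by
    rcases h.rest k hx with ⟨k1, k2⟩ | ⟨k1, k2⟩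
    · rw [h.tree _ (.inl k1)]
      exact (h1 x.1.symm k1 k2).symm
    · rw [h.tree _ (.inr k1)]
      exact h1 _ k1 k2
  rcases up_cases t x with e | e
  · rwa [← e] at h2
  · have h3 := mir_same (μ := mi tw R) ps_mir h2
    rw [mi_neg (x := up t x.1) k, mi_neg (by rwa [al_edge]), ← al_nu, al_al, ← e] at h3
    exact h3.symm

theorem NCt.nu_mi (h : NCt T σ tw t A R) {x : G.Dart × Bool} (hx : x.1.edge ∉ kE A R) :
    (ps σ tw R).SameCycle (nu x) (mi tw R x) := by
  by_cases k : x.1.edge ∈ R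
  · rw [mi_pos k]
  · rw [mi_neg k]
    exact h.inv (x := nu x) hx

theorem NCt.rw_sc (h : NCt T σ tw t A R) {N : Set (Sym2 V)} (hN : N ⊆ (kE A R)ᶜ)
    (x : G.Dart × Bool) : (ps σ tw R).SameCycle x (rw' G tw N x) := by
  rw [rw_apply]
  by_cases k : x.1.edge ∈ N
  · rw [rwf_pos k]
    exact h.inv (hN k)
  · rw [rwf_neg k]

theorem NCt.ps_sc (h : NCt T σ tw t A R) {N : Set (Sym2 V)} (hN : N ⊆ (kE A R)ᶜ)
    (x : G.Dart × Bool) : (ps σ tw R).SameCycle x (ps σ tw N x) := by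
  have := h.r2 (rw' G tw N x)
  rw [ps_empty] at this
  exact (h.rw_sc hN x).trans this

/-- One of the two mirror cycles. -/
abbrev Orb (σ : Perm G.Dart) (tw : Sym2 V → Bool) (R : Set (Sym2 V)) (x₀ : G.Dart × Bool) : Type :=
  {x // (ps σ tw R).SameCycle x₀ x}

variable {x₀ : G.Dart × Bool}

/-- Restriction to the cycle. -/
def res (x₀ : G.Dart × Bool) (f : Perm (G.Dart × Bool))
    (hf : ∀ x, (ps σ tw R).SameCycle x (f x)) : Perm (Orb σ tw R x₀) :=
  f.subtypePerm fun x => ⟨fun k => k.trans (hf x).symm, fun k => k.trans (hf x)⟩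

theorem NCt.lift (h : NCt T σ tw t A R) (x₀ : G.Dart × Bool) {e : G.Dart}
    (he : e.edge ∉ kE A R) : ∃ x : Orb σ tw R x₀, x.1.1 = e := by
  rcases h.tot x₀ (e, true) with k | k
  · exact ⟨⟨_, k⟩, rfl⟩
  · exact ⟨⟨_, k.trans (h.nu_mi (x := (e, true)) he).symm⟩, rfl⟩

theorem NCt.uniq (h : NCt T σ tw t A R) {x y : Orb σ tw R x₀} (hx : x.1.1.edge ∉ kE A R)
    (k : y.1.1.edge = x.1.1.edge) : y.1 = x.1 ∨ y.1 = flagRev G tw x.1 := by
  have h1 : ¬ (ps σ tw R).SameCycle x₀ (nu x.1) := fun k1 =>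
    ps_not x.1 (x.2.symm.trans (k1.trans (h.nu_mi hx)))
  rcases flag_cases (tw := tw) k with e | e | e | e
  exacts [.inl e, .inr e, absurd (e ▸ y.2) h1,
    absurd ((e ▸ y.2 :).trans (h.inv (x := nu x.1) hx).symm) h1]

/-- Counting the cycles on the orbit. -/
theorem NCt.cyc_res (h : NCt T σ tw t A R) {M N : Set (Sym2 V)} (hM : M ⊆ (kE A R)ᶜ)
    (hN : N ⊆ (kE A R)ᶜ) (e : ∀ x, ps σ tw M (rwf tw N x) = ps σ tw R x) {ι : Type} [Finite ι]
    (c : ι → G.Dart) (hc : ∀ i, (c i).edge ∉ kE A R)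
    (hs : ∀ e : G.Dart, e.edge ∈ N → ∃ i, (c i).edge = e.edge) :
    cyc (res x₀ _ (h.ps_sc hM)) ≤ Nat.card ι + 1 := by
  have := Pl.ztree_fin (G := G)
  choose c' hc' using fun i => h.lift x₀ (hc i)
  refine cyc_le _ (res x₀ _ (h.rw_sc hN)) (fun x => Subtype.ext (rwf_rwf _ _ _)) c'
    (fun x hx => ?_) ⟨x₀, .refl _ _⟩ fun x y => ?_
  · have k : x.1.1.edge ∈ N := by
      by_contra k
      exact hx (Subtype.ext (rwf_neg k))
    obtain ⟨i, hi⟩ := hs _ k
    refine ⟨i, (h.uniq (hN k) (y := c' i) (by rw [hc', hi])).imp (fun k1 => Subtype.ext k1.symm)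
      fun k1 => Subtype.ext ((rwf_pos k).trans k1.symm)⟩
  · have e1 : res x₀ _ (h.ps_sc hM) * res x₀ _ (h.rw_sc hN) = res x₀ _ (sc_step _) :=
      Equiv.ext fun x => Subtype.ext (e x.1)
    rw [e1]
    exact Perm.sameCycle_subtypePerm.2 (x.2.symm.trans y.2)

theorem NCt.double (h : NCt T σ tw t A R) (x₀ : G.Dart × Bool) :
    cyc (ps σ tw ∅) ≤ 2 * cyc (res x₀ _ h.r2) := by
  have := Pl.ztree_fin (G := G)
  let f : Quotient (Perm.SameCycle.setoid (res x₀ _ h.r2)) × Bool →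
      Quotient (Perm.SameCycle.setoid (ps σ tw ∅)) := fun q =>
    Quotient.lift (fun x : Orb σ tw R x₀ => ⟦cond q.2 x.1 (mi tw ∅ x.1)⟧) (fun x y k => by
      have k1 : (ps σ tw ∅).SameCycle x.1 y.1 := Perm.sameCycle_subtypePerm.1 k
      cases q.2
      exacts [Quotient.sound (mir_same ps_mir k1), Quotient.sound k1]) q.1
  have hf : Function.Surjective f := fun q => by
    obtain ⟨x, rfl⟩ := Quotient.exists_rep q
    rcases h.tot x₀ x with k | k
    · exact ⟨(⟦⟨x, k⟩⟧, true), rfl⟩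
    · refine ⟨(⟦⟨mi tw ∅ x, k.trans ?_⟩⟧, false), congrArg _ (mi_mi x)⟩
      rw [mi_neg (notMem_empty _)]
      by_cases k1 : x.1.edge ∈ R
      · rw [mi_pos k1]
        exact h.inv (x := nu x) fun k2 => k2.1 k1
      · rw [mi_neg k1]
  have := Nat.card_le_card_of_surjective f hf
  rw [Nat.card_prod, Nat.card_eq_fintype_card (α := Bool), Fintype.card_bool, mul_comm] at this
  exact this

end Vale.Agent.P235.Gn
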