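import Vale.Agent.P235P.PDefs

/-! Euler genus of a finite connected graph, through embedding schemes (signed rotation systems). -/

namespace Vale.Agent.P235

variable {V : Type}

/-- Crossing an edge: reverse the dart and switch the local orientation if the edge is twisted. -/
def flagRev (G : SimpleGraph V) (tw : Sym2 V → Bool) : Equiv.Perm (G.Dart × Bool) :=
  Function.Involutive.toPerm (fun x => (x.1.symm, xor x.2 (tw x.1.edge))) fun x => by simp

/-- Turning at a vertex: the next or the previous dart, following the local orientation. -/
def flagRot (G : SimpleGraph V) (σ : Equiv.Perm G.Dart) : Equiv.Perm (G.Dart × Bool) :=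
  Equiv.prodCongrLeft fun s => if s then σ else σ⁻¹

/-- The number of orbits of the face tracing of the embedding scheme; every face is traced once in
each direction, so this is twice the number of faces. -/
noncomputable def flagOrbits (G : SimpleGraph V) (σ : Equiv.Perm G.Dart) (tw : Sym2 V → Bool) : ℕ :=
  Nat.card (Quotient (Equiv.Perm.SameCycle.setoid (flagRot G σ * flagRev G tw)))

/-- A finite connected graph has Euler genus at most `g` iff it has no edge (one vertex) or has an
embedding scheme (rotation system and edge signature) with `V - E + F ≥ 2 - g`. -/
def EulerGenusLE (G : SimpleGraph V) (g : ℕ) : Prop :=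
  G.edgeSet = ∅ ∨ ∃ (σ : Equiv.Perm G.Dart) (tw : Sym2 V → Bool), IsRotationSystem G σ ∧
    2 * (Nat.card G.edgeSet + 2) ≤ 2 * Nat.card V + flagOrbits G σ tw + 2 * g

end Vale.Agent.P235
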