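import Vale.Agent.P235G.NCut
import Vale.Agent.P235G.GMain

/-! P235: graphs of bounded Euler genus. -/

open Set SimpleGraph Equiv

noncomputable section

namespace Vale.Agent.P235.Gn

theorem Met.lift {V : Type} {G G' : Mp V} {ℓ : G.Dart → ℝ} {d : V → V → ℝ} (M : Met G ℓ d)
    (p : G'.Dart → G.Dart) (h1 : ∀ x, (p x).fst = x.fst) (h2 : ∀ x, p x.symm = (p x).symm)
    (h3 : ∀ e : G.Dart, e.symm ≠ e → ∃ x, p x = e) : Met G' (fun x => ℓ (p x)) d := by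
  have h4 : ∀ x, (p x).snd = x.snd := fun x => by rw [Mp.Dart.snd, ← h2, h1, Mp.Dart.snd]
  refine ⟨fun x => M.pos _, fun x => by rw [h2, M.lsymm], M.self, M.symm, M.tri,
    fun x => by rw [← h1, ← h4]; exact M.edge _, fun x y hxy => ?_⟩
  obtain ⟨e, e1, e2⟩ := M.bell x y hxy
  obtain ⟨z, rfl⟩ := h3 e fun k => by
    rw [Mp.Dart.snd, k, e1] at e2
    linarith [M.pos e]
  exact ⟨z, (h1 z).symm.trans e1, h4 z ▸ e2⟩

variable {V : Type} {G : SimpleGraph V} {σ : Perm G.Dart} {tw : Sym2 V → Bool} {T : Pl.Tr G}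
  {t : V → Bool} {A : Set V} {R : Set (Sym2 V)} [Finite V]

/-- The contracted map on one of the two mirror cycles. -/
@[reducible] def nmap (h : NCt T σ tw t A R) (x₀ : G.Dart × Bool) : Mp (Option {v // v ∉ A}) :=
  ⟨Orb σ tw R x₀, have := Pl.ztree_fin (G := G); inferInstance, res x₀ _ (h.rw_sc subset_rfl),
    fun _ => Subtype.ext (rwf_rwf _ _ _), fun x => qA A x.1.1.fst⟩

omit [Finite V] in
theorem NCt.ne_r (h : NCt T σ tw t A R) (v : {v // v ∉ A}) : v.1 ≠ T.r :=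
  fun k => v.2 (k ▸ h.root)

theorem NCt.surj (h : NCt T σ tw t A R) {x₀ : G.Dart × Bool} (h0 : x₀.1.fst = T.r)
    (y : Option {v // v ∉ A}) : ∃ x : (nmap h x₀).Dart, x.fst = y := by
  cases y with
  | none => exact ⟨⟨x₀, .refl _ _⟩, qA_pos (h0 ▸ h.root)⟩
  | some v =>
    obtain ⟨x, hx⟩ := h.lift x₀ (e := ⟨(v.1, T.par v.1), T.adj _ (h.ne_r v)⟩)
      fun k => v.2 (mem_kE.1 k).2.1
    refine ⟨x, ?_⟩
    change qA A x.1.1.fst = _
    rw [hx]
    exact qA_neg v.2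

omit [Finite V] in
theorem NCt.tree_edge (h : NCt T σ tw t A R) {e : G.Dart} (h1 : e.edge ∉ R)
    (h2 : e.edge ∉ kE A R) : ∃ v : {v // v ∉ A}, s(v.1, T.par v.1) = e.edge := by
  rcases h.rest h1 h2 with ⟨k1, k2⟩ | ⟨k1, k2⟩
  · exact ⟨⟨_, k2⟩, congrArg (fun y => s(e.fst, y)) k1.2.symm⟩
  · refine ⟨⟨_, k2⟩, ?_⟩
    have k3 : e.fst = T.par e.snd := k1.2
    change s(_, _) = s(_, _)
    rw [← k3, Sym2.eq_swap]

theorem NCt.rot' (h : NCt T σ tw t A R) {x₀ : G.Dart × Bool} (h0 : x₀.1.fst = T.r) :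
    (nmap h x₀).Rot (res x₀ _ (h.ps_sc subset_rfl)) := by
  have := Pl.ztree_fin (G := G)
  have h1 : ∀ x y : Orb σ tw R x₀, (res x₀ _ (h.ps_sc subset_rfl)).SameCycle x y →
      qA A x.1.1.fst = qA A y.1.1.fst := fun x y =>
    rel_cyc (Z := fun x y : Orb σ tw R x₀ => qA A x.1.1.fst = qA A y.1.1.fst)
      ⟨fun _ => rfl, Eq.symm, Eq.trans⟩ fun x => by
        change _ = qA A (ps σ tw (kE A R)ᶜ x.1).1.fst
        by_cases k : x.1.1.edge ∈ kE A R
        · rw [ps_neg (R := (kE A R)ᶜ) (x := x.1) fun k' => k' k, h.fst, qA_pos (mem_kE.1 k).2.1]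
          exact (qA_pos (mem_kE.1 k).2.2).symm
        · rw [ps_pos k, h.fst]
  have h3 := h.cyc_res (x₀ := x₀) (M := (kE A R)ᶜ) (N := (R ∪ kE A R)ᶜ) subset_rfl
    (compl_subset_compl.2 subset_union_right) (fun x => by
      by_cases k : x.1.edge ∈ R
      · rw [rwf_neg (R := (R ∪ kE A R)ᶜ) (x := x) fun k' => k' (.inl k), ps_pos k,
          ps_pos (R := (kE A R)ᶜ) (x := x) fun k' => k'.1 k]
      by_cases k' : x.1.edge ∈ kE A R
      · rw [rwf_neg (R := (R ∪ kE A R)ᶜ) (x := x) fun k1 => k1 (.inr k'), ps_neg k,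
          ps_neg (R := (kE A R)ᶜ) (x := x) fun k1 => k1 k']
      · rw [rwf_pos (R := (R ∪ kE A R)ᶜ) (x := x) fun k1 => k1.elim k k', ps_neg k,
          ps_pos (R := (kE A R)ᶜ) (by rwa [al_edge])])
    (fun v : {v // v ∉ A} => ⟨(v.1, T.par v.1), T.adj _ (h.ne_r v)⟩)
    (fun v k => v.2 (mem_kE.1 k).2.1)
    fun e he => h.tree_edge (fun k => he (.inl k)) fun k => he (.inr k)
  let f : Quotient (Perm.SameCycle.setoid (res x₀ _ (h.ps_sc subset_rfl))) →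
      Option {v // v ∉ A} := Quotient.lift (fun x : Orb σ tw R x₀ => qA A x.1.1.fst) h1
  have h4 : Function.Surjective f := fun y => by
    obtain ⟨x, hx⟩ := h.surj h0 y
    exact ⟨⟦x⟧, hx⟩
  have h5 := (h4.bijective_of_nat_card_le (by rw [Finite.card_option]; exact h3)).1
  refine ⟨fun x y => ⟨h1 x y, fun k => Quotient.exact (h5 (a₁ := ⟦x⟧) (a₂ := ⟦y⟧) k)⟩,
    fun (x : Orb σ tw R x₀) hx k => ?_⟩
  have k1 : x.1.1.edge ∈ (kE A R)ᶜ := by
    by_contra k1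
    exact hx (Subtype.ext (rwf_neg k1))
  have k2 : ps σ tw (kE A R)ᶜ x.1 = rwf tw (kE A R)ᶜ x.1 := congrArg Subtype.val k
  have k3 := h.fst x.1
  rw [← ps_pos (tw := tw) k1, k2, rwf_pos k1] at k3
  exact x.1.1.adj.ne' k3

theorem NCt.euler (h : NCt T σ tw t A R) (x₀ : G.Dart × Bool)
    (hc : cyc (ps σ tw R) + 2 * R.ncard ≤ cyc (ps σ tw ∅)) : Nat.card (nmap h x₀).Ed + 2 ≤
      Nat.card (Option {v // v ∉ A}) + cyc (res x₀ _ (h.ps_sc subset_rfl) * (nmap h x₀).revP) := by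
  have := Pl.ztree_fin (G := G)
  have h1 : res x₀ _ (h.ps_sc subset_rfl) * (nmap h x₀).revP = res x₀ _ h.r2 := by
    ext1 x
    refine Subtype.ext ?_
    change flagRot G σ (flagRev G tw (rwf tw _ (rwf tw _ x.1))) = ps σ tw ∅ x.1
    rw [rwf_rwf, ps_neg (notMem_empty _)]
  have h2 : ∀ x : (nmap h x₀).Dart, x.symm ≠ x → x.1.1.edge ∉ kE A R ∧
      x.symm.1 = flagRev G tw x.1 := fun x hx => by
    have k1 : x.1.1.edge ∈ (kE A R)ᶜ := by
      by_contra k1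
      exact hx (Subtype.ext (rwf_neg k1))
    exact ⟨k1, rwf_pos k1⟩
  have h3 : ∀ x : (nmap h x₀).Dart, x.symm ≠ x →
      Sym2.map (fun x : Orb σ tw R x₀ => x.1.1.fst) x.edge = x.1.1.edge := fun x hx => by
    rw [Mp.Dart.edge, Sym2.map_mk, (h2 x hx).2]
    rfl
  have h4 : (nmap h x₀).Ed.ncard ≤ (R ∪ (fun v => s(v, T.par v)) '' Aᶜ).ncard := by
    refine ncard_le_ncard_of_injOn (Sym2.map fun x : Orb σ tw R x₀ => x.1.1.fst) ?_ ?_
    · rintro _ ⟨x, hx, rfl⟩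
      rw [h3 x hx]
      by_cases k : x.1.1.edge ∈ R
      · exact .inl k
      obtain ⟨v, hv⟩ := h.tree_edge k (h2 x hx).1
      exact .inr ⟨v.1, v.2, hv⟩
    · rintro _ ⟨x, hx, rfl⟩ _ ⟨y, hy, rfl⟩ k
      rw [h3 x hx, h3 y hy] at k
      rw [Mp.edge_eq_iff]
      exact (h.uniq (h2 y hy).1 k).imp Subtype.ext fun k1 => Subtype.ext (k1.trans (h2 y hy).2.symm)
  have h5 := ncard_union_le R ((fun v => s(v, T.par v)) '' Aᶜ)
  have h6 := ncard_image_le (f := fun v => s(v, T.par v)) (s := Aᶜ)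
  have h7 : Nat.card {v // v ∉ A} = Aᶜ.ncard := Nat.card_coe_set_eq Aᶜ
  have h8 := h.double x₀
  have : Nonempty (G.Dart × Bool) := ⟨x₀⟩
  have h9 := cyc_pos (ps σ tw R)
  rw [h1, Nat.card_coe_set_eq, Finite.card_option, h7]
  omega

theorem exists_sch {ℓ : Sym2 V → ℝ} {d : V → V → ℝ} (T : Pl.Tr G) (g : T.Geo ℓ d)
    (tw : Sym2 V → Bool) : ∃ (T' : Pl.Tr G) (t : V → Bool), Sch T' T.σ tw t ∧ T'.Geo ℓ d := by
  classical
  have := Pl.ztree_fin (G := G)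
  have wf : WellFounded fun a b : V => T.h a < T.h b := Finite.wellFounded_of_trans_of_irrefl _
  let t : V → Bool := wf.fix fun v ih =>
    if hv : v = T.r then true else xor (ih (T.par v) (T.lt v hv)) (tw s(v, T.par v))
  have ht : ∀ v, v ≠ T.r → t v = xor (t (T.par v)) (tw s(v, T.par v)) := fun v hv =>
    (wf.fix_eq _ v).trans (dif_neg hv)
  have f1 : ∀ e : G.Dart, (T.σ e).fst = e.fst := Pl.Tr.σ_fst
  have f2 : ∀ e : G.Dart, (T.σ⁻¹ e).fst = e.fst := fun e => by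
    rw [← f1]
    simp
  have f3 : ∀ (s : Bool) (e : G.Dart), ((if s then T.σ else T.σ⁻¹) e).fst = e.fst := fun s e => by
    cases s
    exacts [f2 e, f1 e]
  have f4 : ∀ (s : Bool) (e : G.Dart), ((if s then T.σ⁻¹ else T.σ) e).fst = e.fst := fun s e => by
    cases s
    exacts [f1 e, f2 e]
  let σ' : Perm G.Dart := ⟨fun e => (if t e.fst then T.σ else T.σ⁻¹) e,
    fun e => (if t e.fst then T.σ⁻¹ else T.σ) e,
    fun e => by
      beta_reduce
      rw [f3]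
      cases t e.fst <;> simp,
    fun e => by
      beta_reduce
      rw [f4]
      cases t e.fst <;> simp⟩
  have hr : IsRotationSystem G σ' := fun e e' => by
    refine ⟨rel_cyc (ψ := σ') (Z := fun e e' : G.Dart => e.fst = e'.fst) ⟨fun _ => rfl, Eq.symm, Eq.trans⟩
      fun e => (f3 _ e).symm, fun k => rel_cyc (Perm.SameCycle.equivalence σ') (fun x => ?_)
        ((T.rot e e').2 k)⟩
    cases k1 : t x.fst
    · have k2 : σ' (T.σ x) = x := by
        change (if t (T.σ x).fst then T.σ else T.σ⁻¹) (T.σ x) = x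
        rw [f1, k1]
        simp
      exact (k2 ▸ sc_step σ' (T.σ x) :).symm
    · have k2 : σ' x = T.σ x := by
        change (if t x.fst then T.σ else T.σ⁻¹) x = _
        rw [k1]
        rfl
      exact k2 ▸ sc_step σ' x
  refine ⟨⟨σ', hr, T.r, T.par, T.h, T.adj, T.lt⟩, t, ⟨fun e => Prod.ext rfl ?_, fun e he => ?_,
    fun x => f3 _ _⟩, g.h, g.par⟩
  · exact (congrArg t (f3 _ e)).symm
  · refine Prod.ext rfl ?_
    change xor (t e.fst) (tw s(e.fst, e.snd)) = t e.snd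
    rcases he with ⟨k1, k2⟩ | ⟨k1, k2⟩
    · rw [ht _ k1, ← show e.snd = T.par e.fst from k2]
      simp
    · rw [ht e.snd k1, ← show e.fst = T.par e.snd from k2, Sym2.eq_swap]

theorem exists_ncut (h : Sch T σ tw t) {e₀ : G.Dart} (h0 : e₀.fst = T.r) {g : ℕ}
    (hE : 2 * (Nat.card G.edgeSet + 2) ≤ 2 * Nat.card V + flagOrbits G σ tw + 2 * g) :
    ∃ (W : Finset V) (R : Set (Sym2 V)), W.card ≤ 2 * g + 1 ∧
      NCt T σ tw t {a | ∃ w ∈ W, T.Anc a w} R ∧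
      cyc (ps σ tw R) + 2 * R.ncard ≤ cyc (ps σ tw ∅) := by
  classical
  obtain ⟨R, r1, r2, r3, r4⟩ := exists_R' σ tw T.NT
  have hL : (T.NT \ R).Finite := toFinite _
  have cut : NCt T σ tw t
      {a | ∃ w ∈ insert T.r (hL.toFinset.biUnion Sym2.toFinset), T.Anc a w} R :=
    ⟨h, ⟨_, Finset.mem_insert_self _ _, .refl⟩, fun v ⟨w, hw, k⟩ hv => ⟨w, hw, anc_par k hv⟩,
      fun e he he' => ⟨e.fst, Finset.mem_insert_of_mem (Finset.mem_biUnion.2 ⟨e.edge,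
        hL.mem_toFinset.2 ⟨⟨e, he, rfl⟩, he'⟩, Sym2.mem_toFinset.2 (Sym2.mem_mk_left _ _)⟩),
        .refl⟩, r1, r2, h.tot h0 r2 r4⟩
  choose c hc using fun a : R => r1 a.2
  have h1 := cut.cyc_res (x₀ := (e₀, true)) (M := ∅) (N := R) (empty_subset _)
    (fun a ha k => k.1 ha) (fun x => ps_neg (notMem_empty _)) c
    (fun i k => k.1 ((hc i).2 ▸ i.2)) fun e he => ⟨⟨_, he⟩, (hc ⟨_, he⟩).2.symm⟩
  have h2 := T.card_nt
  have h3 := ncard_sdiff_add_ncard_of_subset r1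
  have h5 := cut.double (e₀, true)
  have h6 : flagOrbits G σ tw = cyc (ps σ tw ∅) := by rw [ps_empty]; rfl
  rw [Nat.card_coe_set_eq] at h1 h2
  have h4 := Finset.card_biUnion_le_card_mul hL.toFinset Sym2.toFinset 2 fun a _ => by
    rw [Sym2.card_toFinset]
    split_ifs <;> omega
  rw [← ncard_eq_toFinset_card _ hL] at h4
  exact ⟨_, R, (Finset.card_insert_le _ _).trans (by omega), cut, r3⟩

theorem euler_embed (g : ℕ) : ∃ C : ℝ, ∀ (V : Type) [Fintype V] (G : SimpleGraph V),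
    G.Connected → EulerGenusLE G g → ∀ ℓ : Sym2 V → ℝ, (∀ e ∈ G.edgeSet, 0 < ℓ e) →
      EmbedsL1 (spDist G ℓ) C := by
  obtain ⟨C₀, h0⟩ := Pl.planar_embed
  obtain ⟨C, hC⟩ := map_embed
  refine ⟨max C₀ (2 * (max C 0 + (2 * g + 1) + 1)), fun V _ G hG hg ℓ hl => ?_⟩
  have M := Pl.met hG hl
  by_cases h1 : G.edgeSet = ∅
  · exact embeds_mono M.nonneg (le_max_left _ _) (h0 V G hG (.inl h1) ℓ hl)
  obtain ⟨σ, tw, hσ, hE⟩ := hg.resolve_left h1
  have hd : ∀ v : V, ∃ e : G.Dart, e.fst = v := fun v => by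
    obtain ⟨a, ha⟩ := nonempty_iff_ne_empty.2 h1
    obtain ⟨w, hw⟩ : ∃ w, v ≠ w := by
      induction a using Sym2.ind with
      | _ x y =>
        by_cases k : v = x
        · exact ⟨y, k ▸ G.ne_of_adj ha⟩
        · exact ⟨x, k⟩
    obtain ⟨z, hz, -⟩ := M.bell v w hw
    exact ⟨⟨(v, z), hz⟩, rfl⟩
  obtain ⟨r⟩ := hG.nonempty
  obtain ⟨T₀, rfl, -, geo₀⟩ := M.exists_tr hσ r
  obtain ⟨T, t, sch, geo⟩ := exists_sch T₀ geo₀ tw
  obtain ⟨e₀, he₀⟩ := hd T.r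
  obtain ⟨W, R, hW, cut, hc⟩ := exists_ncut sch he₀ hE
  set A : Set V := {a | ∃ w ∈ W, T.Anc a w}
  have hh : ∀ x, ∃ m, IsLeast (spDist G ℓ x '' A) m := fun x => by
    obtain ⟨a, ha, k⟩ := exists_min_image A (spDist G ℓ x) (toFinite _) ⟨_, cut.root⟩
    exact ⟨_, ⟨a, ha, rfl⟩, by rintro _ ⟨b, hb, rfl⟩; exact k b hb⟩
  choose h hh using hh
  have := Fintype.ofFinite (Option {v // v ∉ A})
  have M' := (cmap_met M hh cut.root (K := kE A R) fun e k => (mem_kE.1 k).2).lift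
    (G' := nmap cut (e₀, true)) (fun x => x.1.1) (fun _ => rfl) (fun x => by
      change (rwf tw (kE A R)ᶜ x.1).1 = rvf G (kE A R)ᶜ x.1.1
      by_cases k : x.1.1.edge ∈ (kE A R)ᶜ
      · rw [rwf_pos k, rvf_pos k, al_fst]
      · rw [rwf_neg k, rvf_neg k])
    fun e he => cut.lift _ fun k => he (rvf_neg fun k' => k' k)
  obtain ⟨Ω, m, μ, f, hf⟩ := embeds_mono M'.nonneg (le_max_left C 0)
    (hC _ _ _ (cut.rot' he₀) (cut.surj he₀) inferInstance (cut.euler _ hc) _ _ M')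
  refine embeds_mono M.nonneg (le_trans ?_ (le_max_right _ _))
    (quot_embed M T geo W A (fun _ => Iff.rfl) h hh (fun v => f (qA A v)) (fun x y => ?_)
      (le_max_right C 0))
  · have : (W.card : ℝ) ≤ 2 * g + 1 := by exact_mod_cast hW
    linarith
  · have := hf (qA A x) (qA A y)
    beta_reduce at this
    rwa [dq_qq M hh cut.root] at this

end Vale.Agent.P235.Gn
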