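import Vale.Agent.P235G.NDefs
import Vale.Agent.P235G.GPerm

/-! P235, bounded Euler genus: mirror cycles and a dual spanning tree. -/

open Set SimpleGraph Equiv

noncomputable section

namespace Vale.Agent.P235.Gn

section
variable {D : Type} [Finite D] {ψ : Perm D} {μ : D → D}

theorem mir_same (h : ∀ x, ψ (μ (ψ x)) = μ x) {x y : D} (hxy : ψ.SameCycle x y) :
    ψ.SameCycle (μ x) (μ y) :=
  rel_cyc (Z := fun x y => ψ.SameCycle (μ x) (μ y))
    ⟨fun _ => .refl _ _, Perm.SameCycle.symm, Perm.SameCycle.trans⟩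
    (fun x => by rw [← h x]; exact (sc_step ψ _).symm) hxy

theorem mir_not (h : ∀ x, ψ (μ (ψ x)) = μ x) (h0 : ∀ x, x ≠ μ x) (h1 : ∀ x, ψ x ≠ μ x) (x : D) :
    ¬ ψ.SameCycle x (μ x) := by
  have key : ∀ n : ℕ, (∀ x, (ψ ^ n) x ≠ μ x) ∧ ∀ x, (ψ ^ (n + 1)) x ≠ μ x := by
    intro n
    induction n with
    | zero => exact ⟨h0, by simpa using h1⟩
    | succ n ih =>
      refine ⟨ih.2, fun x e => ih.1 (ψ x) (ψ.injective ?_)⟩
      rw [h, ← e, pow_succ', pow_succ, Perm.mul_apply, Perm.mul_apply]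
  intro k
  obtain ⟨n, e⟩ := k.exists_nat_pow_eq
  exact (key n).1 x e

theorem away [DecidableEq D] {a b y z : D} (ha : ¬ ψ.SameCycle y a) (hb : ¬ ψ.SameCycle y b)
    (h : (ψ * swap a b).SameCycle y z) : ψ.SameCycle y z := by
  refine (rel_cyc (Z := fun u v => ψ.SameCycle y u ↔ ψ.SameCycle y v)
    ⟨fun _ => Iff.rfl, Iff.symm, Iff.trans⟩ (fun u => ?_) h).1 (.refl _ _)
  rw [Perm.mul_apply, Perm.sameCycle_apply_right]
  by_cases k : u = a
  · rw [k, swap_apply_left]
    exact iff_of_false ha hb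
  by_cases k' : u = b
  · rw [k', swap_apply_right]
    exact iff_of_false hb ha
  rw [swap_apply_of_ne_of_ne k k']

end

variable {V : Type} {G : SimpleGraph V} {σ : Perm G.Dart} {tw : Sym2 V → Bool}
  {R : Set (Sym2 V)} {x y : G.Dart × Bool}

/-- The opposite local orientation. -/
def nu (x : G.Dart × Bool) : G.Dart × Bool := (x.1, !x.2)

theorem al_fst (x : G.Dart × Bool) : (flagRev G tw x).1 = x.1.symm := rfl

theorem al_al (x : G.Dart × Bool) : flagRev G tw (flagRev G tw x) = x := by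
  ext1
  · exact x.1.symm_symm
  · change xor (xor x.2 (tw x.1.edge)) (tw x.1.symm.edge) = x.2
    simp

theorem al_edge (x : G.Dart × Bool) : (flagRev G tw x).1.edge = x.1.edge := x.1.edge_symm

theorem al_nu (x : G.Dart × Bool) : flagRev G tw (nu x) = nu (flagRev G tw x) := by
  ext1
  · rfl
  · change xor (!x.2) (tw x.1.edge) = !(xor x.2 (tw x.1.edge))
    simp

theorem nu_nu (x : G.Dart × Bool) : nu (nu x) = x := by simp [nu]

theorem rot_eq (x : G.Dart × Bool) :
    flagRot G σ x = ((if x.2 then σ else σ⁻¹) x.1, x.2) := rfl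

theorem rot_nu (x : G.Dart × Bool) : flagRot G σ (nu (flagRot G σ x)) = nu x := by
  obtain ⟨e, s⟩ := x
  cases s <;> simp [rot_eq, nu]

theorem flag_cases (h : y.1.edge = x.1.edge) :
    y = x ∨ y = flagRev G tw x ∨ y = nu x ∨ y = flagRev G tw (nu x) := by
  have k : ∀ x y : G.Dart × Bool, y.1 = x.1 → y = x ∨ y = nu x := by
    rintro ⟨e, s⟩ ⟨e', s'⟩ (rfl : e' = e)
    cases s <;> cases s' <;> simp [nu]
  rcases (dart_edge_eq_iff _ _).1 h with e | e
  · exact (k x y e).imp_right fun h => Or.inr (Or.inl h)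
  · rw [al_nu]
    exact Or.inr ((k (flagRev G tw x) y e).imp_right Or.inr)

open Classical in
/-- Crossing the edges in `R` only. -/
def rwf (tw : Sym2 V → Bool) (R : Set (Sym2 V)) (x : G.Dart × Bool) : G.Dart × Bool :=
  if x.1.edge ∈ R then flagRev G tw x else x

theorem rwf_pos (h : x.1.edge ∈ R) : rwf tw R x = flagRev G tw x := if_pos h

theorem rwf_neg (h : x.1.edge ∉ R) : rwf tw R x = x := if_neg h

theorem rwf_rwf (tw : Sym2 V → Bool) (R : Set (Sym2 V)) (x : G.Dart × Bool) :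
    rwf tw R (rwf tw R x) = x := by
  by_cases h : x.1.edge ∈ R
  · rw [rwf_pos h, rwf_pos (by rwa [al_edge]), al_al]
  · rw [rwf_neg h, rwf_neg h]

/-- The same as a permutation. -/
def rw' (G : SimpleGraph V) (tw : Sym2 V → Bool) (R : Set (Sym2 V)) : Perm (G.Dart × Bool) :=
  Function.Involutive.toPerm (rwf tw R) (rwf_rwf tw R)

theorem rw_apply (x : G.Dart × Bool) : rw' G tw R x = rwf tw R x := rfl

/-- The face tracing after deleting the edges in `R`. -/
def ps (σ : Perm G.Dart) (tw : Sym2 V → Bool) (R : Set (Sym2 V)) : Perm (G.Dart × Bool) :=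
  flagRot G σ * flagRev G tw * rw' G tw R

/-- The mirror image. -/
def mi (tw : Sym2 V → Bool) (R : Set (Sym2 V)) (x : G.Dart × Bool) : G.Dart × Bool :=
  nu (flagRev G tw (rwf tw R x))

theorem ps_pos (h : x.1.edge ∈ R) : ps σ tw R x = flagRot G σ x := by
  rw [ps, Perm.mul_apply, Perm.mul_apply, rw_apply, rwf_pos h, al_al]

theorem ps_neg (h : x.1.edge ∉ R) : ps σ tw R x = flagRot G σ (flagRev G tw x) := by
  rw [ps, Perm.mul_apply, Perm.mul_apply, rw_apply, rwf_neg h]

theorem mi_pos (h : x.1.edge ∈ R) : mi tw R x = nu x := by rw [mi, rwf_pos h, al_al]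

theorem mi_neg (h : x.1.edge ∉ R) : mi tw R x = flagRev G tw (nu x) := by
  rw [mi, rwf_neg h, al_nu]

theorem mi_mi (x : G.Dart × Bool) : mi tw R (mi tw R x) = x := by
  by_cases h : x.1.edge ∈ R
  · rw [mi_pos h, mi_pos (x := nu x) h, nu_nu]
  · rw [mi_neg h, mi_neg (by rwa [al_edge]), ← al_nu, nu_nu, al_al]

theorem ps_mi (x : G.Dart × Bool) : ps σ tw R (mi tw R x) = flagRot G σ (nu x) := by
  by_cases h : x.1.edge ∈ R
  · rw [mi_pos h, ps_pos (x := nu x) h]
  · rw [mi_neg h, ps_neg (by rwa [al_edge]), al_al]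

theorem ps_mir (x : G.Dart × Bool) : ps σ tw R (mi tw R (ps σ tw R x)) = mi tw R x := by
  rw [ps_mi]
  exact rot_nu _

theorem ps_not [Finite V] (x : G.Dart × Bool) : ¬ (ps σ tw R).SameCycle x (mi tw R x) := by
  have := Pl.ztree_fin (G := G)
  refine mir_not ps_mir (fun x e => ?_) (fun x e => ?_) x
  · by_cases h : x.1.edge ∈ R
    · rw [mi_pos h] at e
      simpa [nu] using congrArg Prod.snd e
    · rw [mi_neg h] at e
      exact x.1.symm_ne (congrArg Prod.fst e).symm
  · have : (flagRev G tw (rwf tw R x)).2 = !(flagRev G tw (rwf tw R x)).2 := congrArg Prod.snd e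
    simp at this

theorem rw_insert [DecidableEq (G.Dart × Bool)] (h : x.1.edge ∉ R) :
    rw' G tw (insert x.1.edge R) = rw' G tw R * swap x (flagRev G tw x) *
      swap (nu x) (flagRev G tw (nu x)) := by
  have n1 : ∀ x : G.Dart × Bool, x ≠ nu x := fun x e => by simpa [nu] using congrArg Prod.snd e
  have n2 : ∀ x y : G.Dart × Bool, y.1 = x.1 → y ≠ flagRev G tw x := fun x y k e =>
    x.1.symm_ne ((congrArg Prod.fst e).symm.trans k)
  have n3 : flagRev G tw x ≠ flagRev G tw (nu x) := fun e => n1 x ((flagRev G tw).injective e)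
  ext1 y
  rw [Perm.mul_apply, Perm.mul_apply, rw_apply, rw_apply]
  by_cases k : y.1.edge = x.1.edge
  · rw [rwf_pos (k ▸ mem_insert _ _)]
    rcases flag_cases (tw := tw) k with rfl | rfl | rfl | rfl
    · rw [swap_apply_of_ne_of_ne (n1 y) (n2 (nu y) y rfl), swap_apply_left,
        rwf_neg (by rwa [al_edge])]
    · rw [swap_apply_of_ne_of_ne (n2 x (nu x) rfl).symm n3, swap_apply_right, rwf_neg h, al_al]
    · rw [swap_apply_left, swap_apply_of_ne_of_ne (n2 (nu x) x rfl).symm n3.symm,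
        rwf_neg (by rwa [al_edge])]
    · rw [swap_apply_right, swap_apply_of_ne_of_ne (n1 x).symm (n2 x (nu x) rfl), al_al]
      exact (rwf_neg (x := nu x) h).symm
  · have k1 : ∀ z : G.Dart × Bool, z.1.edge = x.1.edge → y ≠ z := fun z hz e => k (e ▸ hz)
    rw [swap_apply_of_ne_of_ne (k1 (nu x) rfl) (k1 _ (al_edge (nu x))),
      swap_apply_of_ne_of_ne (k1 x rfl) (k1 _ (al_edge x))]
    by_cases h2 : y.1.edge ∈ R
    · rw [rwf_pos h2, rwf_pos (mem_insert_of_mem _ h2)]
    · rw [rwf_neg h2, rwf_neg fun k2 => k2.elim k h2]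

theorem ps_empty : ps σ tw ∅ = flagRot G σ * flagRev G tw := by
  ext1 x
  rw [ps_neg (notMem_empty _), Perm.mul_apply]

/-- A spanning tree of the dual among the edges in `U`. -/
theorem exists_R' [Finite V] (σ : Perm G.Dart) (tw : Sym2 V → Bool) (U : Set (Sym2 V)) :
    ∃ R ⊆ U, (∀ x, (ps σ tw R).SameCycle x (ps σ tw ∅ x)) ∧
      cyc (ps σ tw R) + 2 * R.ncard ≤ cyc (ps σ tw ∅) ∧ ∀ x : G.Dart × Bool, x.1.edge ∈ U →
        (ps σ tw R).SameCycle x (flagRev G tw x) ∨
          (ps σ tw R).SameCycle x (mi tw R (flagRev G tw x)) := by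
  classical
  have := Pl.ztree_fin (G := G)
  let P : Set (Set (Sym2 V)) := {R | R ⊆ U ∧ (∀ x, (ps σ tw R).SameCycle x (ps σ tw ∅ x)) ∧
    cyc (ps σ tw R) + 2 * R.ncard ≤ cyc (ps σ tw ∅)}
  have hP : P.Nonempty := ⟨∅, empty_subset _, fun x => sc_step _ x, by simp⟩
  obtain ⟨R, ⟨r1, r2, r3⟩, hm⟩ := (measure fun R => cyc (ps σ tw R)).wf.has_min P hP
  refine ⟨R, r1, r2, r3, fun x hx => ?_⟩
  by_contra hn
  obtain ⟨hn, hn'⟩ := not_or.1 hn
  have h2 : x.1.edge ∉ R := fun k => hn (by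
    have := r2 (flagRev G tw x)
    rw [ps_neg (notMem_empty _), al_al, ← ps_pos k] at this
    exact (sc_step _ x).trans this.symm)
  have h3 : ps σ tw (insert x.1.edge R) =
      ps σ tw R * swap x (flagRev G tw x) * swap (nu x) (flagRev G tw (nu x)) := by
    rw [ps, rw_insert h2, ps, ← mul_assoc, ← mul_assoc]
  have e1 : mi tw R (flagRev G tw x) = nu x := by
    rw [mi_neg (by rwa [al_edge]), ← al_nu, al_al]
  obtain ⟨m1, m2⟩ := merge hn (Perm.SameCycle.equivalence _) (sc_step _)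
  have h4 := cyc_lt m1 m2 hn
  have h5 : ¬ (ps σ tw R * swap x (flagRev G tw x)).SameCycle (nu x) (flagRev G tw (nu x)) := by
    intro k
    have k1 := away (fun k => hn' (e1 ▸ k.symm)) (fun k => ps_not _ (e1 ▸ k.symm)) k
    rw [← mi_neg h2, ← e1] at k1
    have k2 := mir_same (μ := mi tw R) ps_mir k1
    rw [mi_mi, mi_mi] at k2
    exact hn k2.symm
  obtain ⟨m3, m4⟩ := merge h5 (Perm.SameCycle.equivalence _) (sc_step _)
  have h6 := cyc_lt m3 m4 h5
  refine hm (insert x.1.edge R) ⟨insert_subset hx r1, fun y => ?_, ?_⟩ ?_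
  · rw [h3]
    exact rel_cyc (Perm.SameCycle.equivalence _) m3
      (rel_cyc (Perm.SameCycle.equivalence _) m1 (r2 y))
  · rw [h3, ncard_insert_of_notMem h2]
    omega
  · change cyc _ < cyc _
    rw [h3]
    exact h6.trans h4

end Vale.Agent.P235.Gn
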